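import Vale.Agent.P091.PET.H514.Kap

/-!
# P091, row PET (helper514), part 2: averaging the dyadic shifts over translations

Everything is on the integers.  A grid with intervals of length `4q` and offset `a` consists of the
intervals `[a + 4qk, a + 4q(k+1))`.  The shift pairs the difference of the halves in `y`
with the sign pattern `+ - - +` on the quarters in `x`.  The average over `a` is EXACTLY the
convolution with `kap (t / q) / (16 q)`.
-/

set_option autoImplicit false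

open Finset

namespace Vale.Agent.P091.PET

/-- `+` on the first half, `-` on the second half of `[0, 4q)` -/
noncomputable def sS (q u : ℤ) : ℝ := if u < 2 * q then 1 else -1

/-- `+ - - +` on the quarters of `[0, 4q)` -/
noncomputable def sG (q u : ℤ) : ℝ := if u < q ∨ 3 * q ≤ u then 1 else -1

/-- overlap of two intervals of integers -/
theorem overlap {a b c d : ℤ} (hab : a ≤ b) (hcd : c ≤ d) (t : ℤ) :
    (∑ u ∈ Ico a b, if c ≤ u + t ∧ u + t < d then (1:ℝ) else 0)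
      = ((|d - t - a| : ℤ) - (|c - t - a| : ℤ) - (|d - t - b| : ℤ) + (|c - t - b| : ℤ)) / 2 := by
  rw [← sum_filter, sum_const, nsmul_eq_mul, mul_one]
  have e : (Ico a b).filter (fun u => c ≤ u + t ∧ u + t < d) = Ico (max a (c - t)) (min b (d - t)) := by
    ext u
    simp only [mem_filter, mem_Ico, max_le_iff, lt_min_iff]
    constructor
    · rintro ⟨⟨h1, h2⟩, h3, h4⟩; exact ⟨⟨h1, by omega⟩, h2, by omega⟩
    · rintro ⟨⟨h1, h2⟩, h3, h4⟩; exact ⟨⟨h1, h3⟩, by omega, by omega⟩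
  rw [e, Int.card_Ico]
  have key : 2 * (((min b (d - t) - max a (c - t)).toNat : ℕ) : ℤ)
      = |d - t - a| - |c - t - a| - |d - t - b| + |c - t - b| := by
    rw [Int.abs_eq_natAbs, Int.abs_eq_natAbs, Int.abs_eq_natAbs, Int.abs_eq_natAbs]
    omega
  have key' : 2 * (((min b (d - t) - max a (c - t)).toNat : ℕ) : ℝ)
      = ((|d - t - a| : ℤ) - (|c - t - a| : ℤ) - (|d - t - b| : ℤ) + (|c - t - b| : ℤ) : ℝ) := by
    exact_mod_cast key
  linarith

/-- the kernel of one scale, exactly -/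
theorem corr {q : ℤ} (hq : 0 < q) (t : ℤ) :
    ∑ u ∈ Ico 0 (4 * q), sS q u * (if 0 ≤ u + t ∧ u + t < 4 * q then sG q (u + t) else 0)
      = q * kap (t / q) := by
  have h1 := overlap (a := 0) (b := 4 * q) (c := 0) (d := 4 * q) (by omega) (by omega) t
  have h2 := overlap (a := 0) (b := 4 * q) (c := q) (d := 3 * q) (by omega) (by omega) t
  have h3 := overlap (a := 2 * q) (b := 4 * q) (c := 0) (d := 4 * q) (by omega) (by omega) t
  have h4 := overlap (a := 2 * q) (b := 4 * q) (c := q) (d := 3 * q) (by omega) (by omega) t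
  have e3 : ∀ f : ℤ → ℝ, ∑ u ∈ Ico (2 * q) (4 * q), f u
      = ∑ u ∈ Ico 0 (4 * q), if 2 * q ≤ u then f u else 0 := by
    intro f
    rw [← sum_filter]
    refine sum_congr ?_ fun _ _ => rfl
    ext u
    simp only [mem_Ico, mem_filter]
    constructor
    · rintro ⟨h, h'⟩; exact ⟨⟨by omega, h'⟩, h⟩
    · rintro ⟨⟨_, h'⟩, h⟩; exact ⟨h, h'⟩
  rw [e3] at h3 h4
  have hsum : ∑ u ∈ Ico 0 (4 * q), sS q u * (if 0 ≤ u + t ∧ u + t < 4 * q then sG q (u + t) else 0)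
      = (∑ u ∈ Ico 0 (4 * q), if 0 ≤ u + t ∧ u + t < 4 * q then (1:ℝ) else 0)
        - 2 * (∑ u ∈ Ico 0 (4 * q), if q ≤ u + t ∧ u + t < 3 * q then (1:ℝ) else 0)
        - 2 * (∑ u ∈ Ico 0 (4 * q), if 2 * q ≤ u then
            (if 0 ≤ u + t ∧ u + t < 4 * q then (1:ℝ) else 0) else 0)
        + 4 * (∑ u ∈ Ico 0 (4 * q), if 2 * q ≤ u then
            (if q ≤ u + t ∧ u + t < 3 * q then (1:ℝ) else 0) else 0) := by
    rw [mul_sum, mul_sum, mul_sum, ← sum_sub_distrib, ← sum_sub_distrib, ← sum_add_distrib]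
    refine sum_congr rfl fun u hu => ?_
    rw [mem_Ico] at hu
    unfold sS sG
    by_cases c1 : u < 2 * q <;> by_cases c2 : 0 ≤ u + t ∧ u + t < 4 * q <;>
      by_cases c3 : q ≤ u + t ∧ u + t < 3 * q
    · have c4 : ¬ (u + t < q ∨ 3 * q ≤ u + t) := by omega
      have c5 : ¬ (2 * q ≤ u) := by omega
      simp only [if_pos c1, if_pos c2, if_pos c3, if_neg c4, if_neg c5]; norm_num
    · have c4 : (u + t < q ∨ 3 * q ≤ u + t) := by omega
      have c5 : ¬ (2 * q ≤ u) := by omega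
      simp only [if_pos c1, if_pos c2, if_neg c3, if_pos c4, if_neg c5]; norm_num
    · exfalso; omega
    · have c5 : ¬ (2 * q ≤ u) := by omega
      simp only [if_pos c1, if_neg c2, if_neg c3, if_neg c5]; norm_num
    · have c4 : ¬ (u + t < q ∨ 3 * q ≤ u + t) := by omega
      have c5 : (2 * q ≤ u) := by omega
      simp only [if_neg c1, if_pos c2, if_pos c3, if_neg c4, if_pos c5]; norm_num
    · have c4 : (u + t < q ∨ 3 * q ≤ u + t) := by omega
      have c5 : (2 * q ≤ u) := by omega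
      simp only [if_neg c1, if_pos c2, if_neg c3, if_pos c4, if_pos c5]; norm_num
    · exfalso; omega
    · have c5 : (2 * q ≤ u) := by omega
      simp only [if_neg c1, if_neg c2, if_neg c3, if_pos c5]; norm_num
  rw [hsum, h1, h2, h3, h4]
  have hq' : (0:ℝ) < q := by exact_mod_cast hq
  have ab : ∀ c : ℝ, (q:ℝ) * |(t:ℝ) / q + c| = |(t:ℝ) + c * q| := by
    intro c
    rw [show (t:ℝ) + c * q = q * (t / q + c) by field_simp, abs_mul, abs_of_pos hq']
  have ab' : ∀ c : ℝ, (q:ℝ) * |(t:ℝ) / q - c| = |(t:ℝ) - c * q| := by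
    intro c
    rw [show (t:ℝ) - c * q = q * (t / q - c) by field_simp, abs_mul, abs_of_pos hq']
  have hk : (q:ℝ) * kap ((t:ℝ) / q) = (-|(t:ℝ) + 4 * q| + 2 * |(t:ℝ) + 3 * q| + 2 * |(t:ℝ) + 2 * q|
      - 6 * |(t:ℝ) + 1 * q| + 6 * |(t:ℝ) - 1 * q| - 2 * |(t:ℝ) - 2 * q|
      - 2 * |(t:ℝ) - 3 * q| + |(t:ℝ) - 4 * q|) / 2 := by
    rw [← ab 4, ← ab 3, ← ab 2, ← ab 1, ← ab' 1, ← ab' 2, ← ab' 3, ← ab' 4]
    unfold kap
    ring
  rw [hk]
  push_cast
  have n1 : |(4:ℝ) * q - t - 0| = |(t:ℝ) - 4 * q| := by rw [abs_sub_comm (t:ℝ)]; congr 1; ring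
  have n2 : |(0:ℝ) - t - 0| = |(t:ℝ)| := by rw [show (0:ℝ) - t - 0 = -t by ring, abs_neg]
  have n3 : |(4:ℝ) * q - t - 4 * q| = |(t:ℝ)| := by
    rw [show (4:ℝ) * q - t - 4 * q = -t by ring, abs_neg]
  have n4 : |(0:ℝ) - t - 4 * q| = |(t:ℝ) + 4 * q| := by
    rw [show (0:ℝ) - t - 4 * q = -(t + 4 * q) by ring, abs_neg]
  have n5 : |(3:ℝ) * q - t - 0| = |(t:ℝ) - 3 * q| := by rw [abs_sub_comm (t:ℝ)]; congr 1; ring
  have n6 : |(q:ℝ) - t - 0| = |(t:ℝ) - 1 * q| := by rw [abs_sub_comm (t:ℝ)]; congr 1; ring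
  have n7 : |(3:ℝ) * q - t - 4 * q| = |(t:ℝ) + 1 * q| := by
    rw [show (3:ℝ) * q - t - 4 * q = -(t + 1 * q) by ring, abs_neg]
  have n8 : |(q:ℝ) - t - 4 * q| = |(t:ℝ) + 3 * q| := by
    rw [show (q:ℝ) - t - 4 * q = -(t + 3 * q) by ring, abs_neg]
  have n9 : |(4:ℝ) * q - t - 2 * q| = |(t:ℝ) - 2 * q| := by
    rw [abs_sub_comm (t:ℝ)]; congr 1; ring
  have n10 : |(0:ℝ) - t - 2 * q| = |(t:ℝ) + 2 * q| := by
    rw [show (0:ℝ) - t - 2 * q = -(t + 2 * q) by ring, abs_neg]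
  have n11 : |(3:ℝ) * q - t - 2 * q| = |(t:ℝ) - 1 * q| := by
    rw [abs_sub_comm (t:ℝ)]; congr 1; ring
  have n12 : |(q:ℝ) - t - 2 * q| = |(t:ℝ) + 1 * q| := by
    rw [show (q:ℝ) - t - 2 * q = -(t + 1 * q) by ring, abs_neg]
  rw [n1, n2, n3, n4, n5, n6, n7, n8, n9, n10, n11, n12]
  ring

/-! ## The shifts of one grid -/

/-- the shift of one scale of the grid with intervals of length `4q` and offset `a`:
`x - (x - a) % (4q)` is the left end of the interval of `x` -/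
noncomputable def T (q a : ℤ) (F : ℤ → ℂ) (x : ℤ) : ℂ :=
  ((sG q ((x - a) % (4 * q)) / (4 * q) : ℝ) : ℂ)
    * ∑ v ∈ Ico 0 (4 * q), (sS q v : ℂ) * F (x - (x - a) % (4 * q) + v)

/-- the dyadic shift of the grid `(r, a)`, interval lengths `4 r 2^i`, `i < m` -/
noncomputable def Sh (r m : ℕ) (a : ℤ) (F : ℤ → ℂ) (x : ℤ) : ℂ :=
  ∑ i ∈ range m, T ((r:ℤ) * 2 ^ i) a F x

theorem sum_mod {L : ℤ} (hL : 0 < L) (x : ℤ) (g : ℤ → ℂ) :
    ∑ a ∈ Ico 0 L, g ((x - a) % L) = ∑ w ∈ Ico 0 L, g w := by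
  refine sum_nbij' (fun a => (x - a) % L) (fun w => (x - w) % L) ?_ ?_ ?_ ?_ ?_
  · intro a _
    exact mem_Ico.2 ⟨Int.emod_nonneg _ hL.ne', Int.emod_lt_of_pos _ hL⟩
  · intro a _
    exact mem_Ico.2 ⟨Int.emod_nonneg _ hL.ne', Int.emod_lt_of_pos _ hL⟩
  · intro a ha
    rw [mem_Ico] at ha
    show (x - (x - a) % L) % L = a
    rw [Int.sub_emod, Int.emod_emod_of_dvd _ (dvd_refl L), ← Int.sub_emod, sub_sub_cancel]
    exact Int.emod_eq_of_lt ha.1 ha.2
  · intro a ha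
    rw [mem_Ico] at ha
    show (x - (x - a) % L) % L = a
    rw [Int.sub_emod, Int.emod_emod_of_dvd _ (dvd_refl L), ← Int.sub_emod, sub_sub_cancel]
    exact Int.emod_eq_of_lt ha.1 ha.2
  · intro a _; rfl

theorem sum_mod_mul {L : ℤ} (hL : 0 < L) (x : ℤ) (g : ℤ → ℂ) (k : ℕ) :
    ∑ a ∈ Ico 0 (k * L), g ((x - a) % L) = k * ∑ w ∈ Ico 0 L, g w := by
  induction k with
  | zero => simp
  | succ k ih =>
    have h1 : (0:ℤ) ≤ k * L := by positivity
    have h2 : (k:ℤ) * L ≤ ((k + 1 : ℕ) : ℤ) * L := by push_cast; nlinarith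
    have hs : ∑ a ∈ Ico (0:ℤ) (((k + 1 : ℕ) : ℤ) * L), g ((x - a) % L)
        = ∑ a ∈ Ico (0:ℤ) (k * L), g ((x - a) % L)
          + ∑ a ∈ Ico ((k:ℤ) * L) (((k + 1 : ℕ) : ℤ) * L), g ((x - a) % L) := by
      rw [← sum_union]
      · congr 1
        ext z
        simp only [mem_Ico, mem_union]
        omega
      · rw [disjoint_left]
        intro z hz hz'
        simp only [mem_Ico] at hz hz'
        omega
    rw [hs, ih]
    have h3 : ∑ a ∈ Ico ((k:ℤ) * L) (((k + 1 : ℕ) : ℤ) * L), g ((x - a) % L)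
        = ∑ a ∈ Ico 0 L, g ((x - a) % L) := by
      refine sum_nbij' (fun a => a - k * L) (fun a => a + k * L) ?_ ?_ ?_ ?_ ?_
      · intro a ha
        rw [mem_Ico] at ha ⊢
        push_cast at ha
        constructor <;> nlinarith [ha.1, ha.2]
      · intro a ha
        rw [mem_Ico] at ha ⊢
        push_cast
        constructor <;> nlinarith [ha.1, ha.2]
      · intro a _; ring
      · intro a _; ring
      · intro a _
        congr 1
        rw [show x - (a - k * L) = (x - a) + L * k by ring, Int.add_mul_emod_self_left]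
    rw [h3, sum_mod hL]
    push_cast
    ring

/-- average of one scale over the offsets -/
theorem avg_T {q : ℤ} (hq : 0 < q) (F : ℤ → ℂ) (x : ℤ) (k : ℕ) {B : ℤ} (hB : 4 * q ≤ B) :
    ∑ a ∈ Ico 0 (k * (4 * q)), T q a F x
      = k * ∑ t ∈ Ioo (-B) B, ((kap (t / q) / 4 : ℝ) : ℂ) * F (x - t) := by
  have h1 := sum_mod_mul (L := 4 * q) (by omega) x
    (fun w => ((sG q w / (4 * q) : ℝ) : ℂ) * ∑ v ∈ Ico 0 (4 * q), (sS q v : ℂ) * F (x - w + v)) k
  have h2 : ∑ a ∈ Ico 0 (k * (4 * q)), T q a F x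
      = ∑ a ∈ Ico 0 (k * (4 * q)), (fun w => ((sG q w / (4 * q) : ℝ) : ℂ)
          * ∑ v ∈ Ico 0 (4 * q), (sS q v : ℂ) * F (x - w + v)) ((x - a) % (4 * q)) :=
    sum_congr rfl fun a _ => rfl
  rw [h2, h1]
  congr 1
  have hq' : (q:ℝ) ≠ 0 := by exact_mod_cast hq.ne'
  have h3 : ∀ v ∈ Ico 0 (4 * q), ∑ w ∈ Ico 0 (4 * q),
      ((sG q w / (4 * q) : ℝ) : ℂ) * ((sS q v : ℂ) * F (x - w + v))
      = ∑ t ∈ Ioo (-B) B, ((sS q v * (if 0 ≤ v + t ∧ v + t < 4 * q then sG q (v + t) else 0)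
          / (4 * q) : ℝ) : ℂ) * F (x - t) := by
    intro v hv
    rw [mem_Ico] at hv
    have h4 : ∑ t ∈ Ioo (-B) B, ((sS q v * (if 0 ≤ v + t ∧ v + t < 4 * q then sG q (v + t) else 0)
          / (4 * q) : ℝ) : ℂ) * F (x - t)
        = ∑ t ∈ (Ioo (-B) B).filter (fun t => 0 ≤ v + t ∧ v + t < 4 * q),
          ((sS q v * sG q (v + t) / (4 * q) : ℝ) : ℂ) * F (x - t) := by
      rw [sum_filter]
      refine sum_congr rfl fun t _ => ?_
      split_ifs
      · rfl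
      · simp
    rw [h4]
    refine sum_nbij' (fun w => w - v) (fun t => v + t) ?_ ?_ ?_ ?_ ?_
    · intro w hw
      rw [mem_Ico] at hw
      rw [mem_filter, mem_Ioo]
      omega
    · intro t ht
      rw [mem_filter, mem_Ioo] at ht
      rw [mem_Ico]
      omega
    · intro w _; ring
    · intro t _; ring
    · intro w _
      simp only [add_sub_cancel]
      rw [show x - (w - v) = x - w + v by ring]
      push_cast
      ring
  have h5 : ∑ w ∈ Ico 0 (4 * q), ((sG q w / (4 * q) : ℝ) : ℂ)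
        * ∑ v ∈ Ico 0 (4 * q), (sS q v : ℂ) * F (x - w + v)
      = ∑ v ∈ Ico 0 (4 * q), ∑ w ∈ Ico 0 (4 * q),
        ((sG q w / (4 * q) : ℝ) : ℂ) * ((sS q v : ℂ) * F (x - w + v)) := by
    rw [sum_comm]
    exact sum_congr rfl fun w _ => mul_sum _ _ _
  rw [h5, sum_congr rfl h3, sum_comm]
  refine sum_congr rfl fun t _ => ?_
  rw [← sum_mul]
  congr 1
  rw [← Complex.ofReal_sum, ← sum_div, corr hq]
  congr 1
  field_simp

/-- **averaging over all grids**: exactly the convolution with `PP / 16` -/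
theorem avg_Sh (R m : ℕ) (F : ℤ → ℂ) (x : ℤ) {B : ℤ}
    (hB : 4 * (R:ℤ) * 2 ^ m ≤ B) :
    ∑ k ∈ range R, ∑ a ∈ Ico (0:ℤ) (((R + k : ℕ) : ℤ) * 2 ^ (m + 1)),
      ((1 / (((R + k : ℕ) : ℝ) * (((R + k : ℕ) : ℝ) * 2 ^ (m + 1))) : ℝ) : ℂ) * Sh (R + k) m a F x
      = ∑ t ∈ Ioo (-B) B, ((PP R m t / 16 : ℝ) : ℂ) * F (x - t) := by
  have hk : ∀ k ∈ range R, ∑ a ∈ Ico (0:ℤ) (((R + k : ℕ) : ℤ) * 2 ^ (m + 1)),
      ((1 / (((R + k : ℕ) : ℝ) * (((R + k : ℕ) : ℝ) * 2 ^ (m + 1))) : ℝ) : ℂ) * Sh (R + k) m a F x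
      = ∑ t ∈ Ioo (-B) B, ((∑ i ∈ range m, (1 / ((R + k : ℕ) : ℝ))
        * (kap (t / (((R + k : ℕ) : ℝ) * 2 ^ i)) / (((R + k : ℕ) : ℝ) * 2 ^ i)) / 16 : ℝ) : ℂ)
          * F (x - t) := by
    intro k hk
    have hk' := mem_range.1 hk
    have hr : (0:ℤ) < ((R + k : ℕ) : ℤ) := by exact_mod_cast (by omega : 0 < R + k)
    have hr' : (0:ℝ) < ((R + k : ℕ) : ℝ) := by exact_mod_cast (by omega : 0 < R + k)
    generalize hrr : R + k = r at *
    have hr2 : (r:ℤ) ≤ 2 * R := by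
      have : r ≤ 2 * R := by omega
      exact_mod_cast this
    have hi : ∀ i ∈ range m, ∑ a ∈ Ico (0:ℤ) ((r : ℤ) * 2 ^ (m + 1)), T ((r:ℤ) * 2 ^ i) a F x
        = ((2:ℂ) ^ (m - 1 - i)) * ∑ t ∈ Ioo (-B) B, ((kap (t / ((r : ℝ) * 2 ^ i)) / 4 : ℝ) : ℂ)
          * F (x - t) := by
      intro i hi
      have hi' := mem_range.1 hi
      have e1 : (r : ℤ) * 2 ^ (m + 1) = ((2 ^ (m - 1 - i) : ℕ) : ℤ) * (4 * ((r:ℤ) * 2 ^ i)) := by
        push_cast
        have : m + 1 = (m - 1 - i) + i + 2 := by omega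
        rw [this, pow_add, pow_add]
        ring
      rw [e1, avg_T (q := (r:ℤ) * 2 ^ i) (by positivity) F x (2 ^ (m - 1 - i)) (B := B)]
      · push_cast
        rfl
      · refine le_trans ?_ hB
        have h1 : (2:ℤ) ^ i * 2 ≤ 2 ^ m := by
          rw [← pow_succ]
          exact pow_le_pow_right₀ (by norm_num) (by omega)
        have h2 : (0:ℤ) < 2 ^ i := by positivity
        nlinarith
    unfold Sh
    simp only [mul_sum]
    rw [sum_comm]
    simp only [← mul_sum]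
    rw [sum_congr rfl fun i hi' => by rw [hi i hi']]
    simp only [mul_sum]
    rw [sum_comm]
    refine sum_congr rfl fun t _ => ?_
    rw [Complex.ofReal_sum, sum_mul]
    refine sum_congr rfl fun i hi' => ?_
    have hi'' := mem_range.1 hi'
    have e2 : ((1 / ((r:ℝ) * ((r:ℝ) * 2 ^ (m + 1))) : ℝ) : ℂ) * (2:ℂ) ^ (m - 1 - i)
        = ((1 / ((r:ℝ) * ((r:ℝ) * 2 ^ i * 4)) : ℝ) : ℂ) := by
      have : (2:ℂ) ^ (m - 1 - i) = (((2:ℝ) ^ (m - 1 - i) : ℝ) : ℂ) := by push_cast; rfl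
      rw [this, ← Complex.ofReal_mul]
      congr 1
      have e3 : (2:ℝ) ^ (m + 1) = 2 ^ (m - 1 - i) * 2 ^ i * 4 := by
        have : m + 1 = (m - 1 - i) + i + 2 := by omega
        rw [this, pow_add, pow_add]
        norm_num
      rw [e3]
      field_simp
    rw [← mul_assoc, ← mul_assoc, e2, ← Complex.ofReal_mul]
    congr 2
    field_simp
    ring
  rw [sum_congr rfl hk, sum_comm]
  refine sum_congr rfl fun t _ => ?_
  rw [← sum_mul, ← Complex.ofReal_sum]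
  congr 2
  unfold PP
  rw [sum_comm, sum_div]
  refine sum_congr rfl fun k _ => ?_
  rw [sum_div]

end Vale.Agent.P091.PET
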