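import Vale.Agent.P091.PET.H514.Avg
import Vale.Agent.P091.CH.H69.Geo
import Vale.Agent.P091.CH.H847.Fou

/-!
# P091, row PET (helper514), part 3: the partial sums on the grid `ZMod (2^K)`
-/

set_option autoImplicit false

open Finset

namespace Vale.Agent.P091.PET

open Vale.Agent.P091.CH

/-! ## The Dirichlet kernel -/

/-- the Dirichlet kernel, `D_N(φ) = ∑_{|k| ≤ N} e^{2ikφ}` -/
noncomputable def DN (N : ℕ) (φ : ℝ) : ℝ := 1 + 2 * ∑ k ∈ range N, Real.cos (2 * (k + 1) * φ)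

theorem DN_mul_sin (N : ℕ) (φ : ℝ) : DN N φ * Real.sin φ = Real.sin ((2 * N + 1) * φ) := by
  induction N with
  | zero => unfold DN; simp
  | succ N ih =>
    unfold DN at ih ⊢
    rw [sum_range_succ]
    have h1 : Real.sin ((2 * ((N + 1 : ℕ) : ℝ) + 1) * φ)
        = Real.sin (2 * (N + 1) * φ + φ) := by push_cast; ring_nf
    have h2 : Real.sin ((2 * (N:ℝ) + 1) * φ) = Real.sin (2 * (N + 1) * φ - φ) := by ring_nf
    rw [h1, Real.sin_add]
    rw [h2, Real.sin_sub] at ih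
    linarith

theorem abs_DN_le (N : ℕ) (φ : ℝ) : |DN N φ| ≤ 2 * N + 1 := by
  unfold DN
  have h : |∑ k ∈ range N, Real.cos (2 * (k + 1) * φ)| ≤ N := by
    refine (abs_sum_le_sum_abs _ _).trans ?_
    calc ∑ k ∈ range N, |Real.cos (2 * (k + 1) * φ)| ≤ ∑ _k ∈ range N, (1:ℝ) :=
          sum_le_sum fun k _ => Real.abs_cos_le_one _
      _ = N := by simp
  rw [abs_le] at h ⊢
  constructor <;> linarith [h.1, h.2]

theorem DN_eq (N : ℕ) (φ : ℝ) :
    ∑ k ∈ Icc (-(N:ℤ)) N, Complex.exp (2 * k * φ * Complex.I) = (DN N φ : ℂ) := by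
  induction N with
  | zero => unfold DN; simp
  | succ N ih =>
    have hI : Icc (-((N + 1 : ℕ) : ℤ)) ((N + 1 : ℕ) : ℤ)
        = insert ((N:ℤ) + 1) (insert (-((N:ℤ) + 1)) (Icc (-(N:ℤ)) N)) := by
      ext k
      simp only [mem_Icc, mem_insert]
      push_cast
      omega
    rw [hI, sum_insert, sum_insert, ih]
    · unfold DN
      rw [sum_range_succ]
      push_cast
      rw [show (2 * ((N:ℂ) + 1) * φ) = ((2 * ((N:ℂ) + 1) * φ)) by ring]
      have h1 : Complex.exp (2 * ((N:ℂ) + 1) * φ * Complex.I)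
          + Complex.exp (2 * (-1 + -(N:ℂ)) * φ * Complex.I)
          = 2 * Complex.cos (2 * ((N:ℂ) + 1) * φ) := by
        rw [Complex.cos]
        rw [show 2 * (-1 + -(N:ℂ)) * φ * Complex.I = -(2 * ((N:ℂ) + 1) * φ) * Complex.I by ring]
        ring
      have h2 : 2 * (-1 + -(N:ℂ)) * (φ:ℂ) * Complex.I = 2 * -((N:ℂ) + 1) * φ * Complex.I := by ring
      rw [h2] at h1
      simp only [neg_add_rev] at h1 ⊢
      linear_combination h1
    · simp only [mem_Icc, not_and, not_le]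
      intro h; omega
    · simp only [mem_insert, mem_Icc, not_or, not_and, not_le]
      refine ⟨by omega, fun h => by omega⟩

/-! ## Summation over one period -/

/-- the symmetric period `(-2^K/2, 2^K/2]` -/
noncomputable def per (K : ℕ) : Finset ℤ := (Icc (-(2:ℤ) ^ K) (2 ^ K)).filter fun t => -(2:ℤ) ^ K < 2 * t ∧ 2 * t ≤ 2 ^ K

theorem mem_per {K : ℕ} {t : ℤ} : t ∈ per K ↔ -(2:ℤ) ^ K < 2 * t ∧ 2 * t ≤ 2 ^ K := by
  unfold per
  rw [mem_filter, mem_Icc]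
  have : (0:ℤ) < 2 ^ K := by positivity
  constructor
  · rintro ⟨_, h⟩; exact h
  · rintro h; exact ⟨by omega, h⟩

theorem sum_per {K : ℕ} {M : Type*} [AddCommMonoid M] (G : X K → M) :
    ∑ x, G x = ∑ t ∈ per K, G ((t : ℤ) : X K) := by
  refine sum_nbij' (fun x => x.valMinAbs) (fun t => ((t : ℤ) : X K)) ?_ ?_ ?_ ?_ ?_
  · intro x _
    rw [mem_per]
    have := ZMod.valMinAbs_mem_Ioc x
    rw [Set.mem_Ioc] at this
    push_cast at this
    constructor <;> linarith [this.1, this.2]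
  · intro t _; exact mem_univ _
  · intro x _; exact ZMod.coe_valMinAbs x
  · intro t ht
    rw [mem_per] at ht
    show ((t : ℤ) : X K).valMinAbs = t
    rw [ZMod.valMinAbs_spec]
    refine ⟨rfl, ?_⟩
    rw [Set.mem_Ioc]
    push_cast
    constructor <;> linarith [ht.1, ht.2]
  · intro x _
    show G x = G ((x.valMinAbs : ℤ) : X K)
    rw [ZMod.coe_valMinAbs]

theorem sum_per_sub {K : ℕ} {M : Type*} [AddCommMonoid M] (G : X K → M) (x : X K) :
    ∑ y, G y = ∑ t ∈ per K, G (x - ((t : ℤ) : X K)) := by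
  rw [← sum_per (fun t => G (x - t))]
  exact (Equiv.sum_comp (Equiv.subLeft x) G).symm

theorem nrm_per {K : ℕ} {t : ℤ} (ht : t ∈ per K) : nrm ((t : ℤ) : X K) = |(t:ℝ)| / 2 ^ K := by
  rw [mem_per] at ht
  have h1 : -(2:ℝ) ^ K < 2 * t := by exact_mod_cast ht.1
  have h2 : (2:ℝ) * t ≤ 2 ^ K := by exact_mod_cast ht.2
  have h0 : (0:ℝ) < 2 ^ K := by positivity
  rw [H69.nrm_intCast, Per.nrm_eq_abs, abs_div, abs_of_pos h0]
  rw [abs_div, abs_of_pos h0, div_le_iff₀ h0]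
  rw [abs_le]
  constructor <;> linarith

/-! ## The partial sums -/

/-- the symmetric partial sums on the grid -/
noncomputable def SG {K : ℕ} (N : ℕ) (f : X K → ℂ) (x : X K) : ℂ :=
  ∑ k ∈ Icc (-(N:ℤ)) N, fc f k * ch k x

theorem ch_int {K : ℕ} (k t : ℤ) :
    ch k ((t : ℤ) : X K) = Complex.exp (2 * k * ((Real.pi * t / 2 ^ K : ℝ) : ℂ) * Complex.I) := by
  unfold ch
  rw [← Int.cast_mul, ZMod.stdAddChar_coe]
  congr 1
  push_cast
  ring

theorem SG_eq {K : ℕ} (N : ℕ) (f : X K → ℝ) (x : X K) :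
    SG N (fun y => (f y : ℂ)) x
      = (((∑ t ∈ per K, f (x - ((t : ℤ) : X K)) * DN N (Real.pi * t / 2 ^ K)) / 2 ^ K : ℝ) : ℂ) := by
  unfold SG fc aveC
  have h1 : ∀ k : ℤ, (∑ y, (f y : ℂ) * ch (-k) y) / 2 ^ K * ch k x
      = ∑ t ∈ per K, (f (x - ((t : ℤ) : X K)) : ℂ) * ch k ((t : ℤ) : X K) / 2 ^ K := by
    intro k
    rw [sum_per_sub _ x, sum_div, sum_mul]
    refine sum_congr rfl fun t _ => ?_
    rw [H847.ch_sub', neg_neg]
    have : ch (-k) x * ch k x = 1 := by rw [mul_comm]; exact H847.ch_mul_neg k x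
    linear_combination ((f (x - ((t : ℤ) : X K)) : ℂ) * ch k ((t : ℤ) : X K) / 2 ^ K) * this
  rw [sum_congr rfl fun k _ => h1 k, sum_comm]
  push_cast
  rw [sum_div]
  refine sum_congr rfl fun t _ => ?_
  rw [← sum_div, ← mul_sum]
  congr 2
  rw [← DN_eq]
  refine sum_congr rfl fun k _ => ?_
  rw [ch_int]

/-! ## Balls and the maximal function -/

theorem sum_ball_per {K : ℕ} (f : X K → ℝ) (x : X K) {b : ℕ} (hb : b ≤ K) :
    ∑ t ∈ (per K).filter (fun t => |t| ≤ 2 ^ b), |f (x - ((t : ℤ) : X K))| ≤ 2 ^ b * MX f x := by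
  have h1 : 2 ^ (K - b) * ave (fun y => if nrm (x - y) ≤ ((2:ℝ) ^ (K - b))⁻¹ then |f y| else 0)
      ≤ MX f x := by
    unfold MX
    exact le_sup' (fun κ => 2 ^ κ * ave (fun y => if nrm (x - y) ≤ ((2:ℝ) ^ κ)⁻¹ then |f y| else 0))
      (mem_range.2 (by omega))
  have h2 : ave (fun y => if nrm (x - y) ≤ ((2:ℝ) ^ (K - b))⁻¹ then |f y| else 0)
      = (∑ t ∈ (per K).filter (fun t => |t| ≤ 2 ^ b), |f (x - ((t : ℤ) : X K))|) / 2 ^ K := by
    unfold ave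
    rw [sum_per_sub _ x, sum_filter]
    congr 1
    refine sum_congr rfl fun t ht => ?_
    rw [sub_sub_cancel, nrm_per ht]
    have h0 : (0:ℝ) < 2 ^ K := by positivity
    have h3 : (2:ℝ) ^ K = 2 ^ (K - b) * 2 ^ b := by rw [← pow_add]; congr 1; omega
    have h4 : |(t:ℝ)| / 2 ^ K ≤ ((2:ℝ) ^ (K - b))⁻¹ ↔ |t| ≤ 2 ^ b := by
      rw [div_le_iff₀ h0, h3, inv_mul_cancel_left₀ (by positivity)]
      rw [← Int.cast_abs]
      constructor
      · intro h; exact_mod_cast h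
      · intro h; exact_mod_cast h
    simp only [h4]
  rw [h2] at h1
  have h3 : (2:ℝ) ^ K = 2 ^ (K - b) * 2 ^ b := by rw [← pow_add]; congr 1; omega
  rw [h3] at h1
  have h5 : (2:ℝ) ^ (K - b) * ((∑ t ∈ (per K).filter (fun t => |t| ≤ 2 ^ b),
      |f (x - ((t : ℤ) : X K))|) / (2 ^ (K - b) * 2 ^ b))
      = (∑ t ∈ (per K).filter (fun t => |t| ≤ 2 ^ b), |f (x - ((t : ℤ) : X K))|) / 2 ^ b := by
    field_simp
  rw [h5, div_le_iff₀ (by positivity)] at h1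
  linarith

theorem MX_nonneg {K : ℕ} (f : X K → ℝ) (x : X K) : 0 ≤ MX f x := by
  have h := sum_ball_per f x (b := 0) (Nat.zero_le _)
  have h2 : 0 ≤ ∑ t ∈ (per K).filter (fun t => |t| ≤ 2 ^ 0), |f (x - ((t : ℤ) : X K))| :=
    sum_nonneg fun _ _ => abs_nonneg _
  have h3 : (2:ℝ) ^ 0 * MX f x = MX f x := by simp
  linarith

/-- sums over balls of integers, up to radius `2^(K+1)` -/
theorem sum_ball {K : ℕ} (f : X K → ℝ) (x : X K) {b : ℕ} (hb : b ≤ K + 1) :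
    ∑ t ∈ Icc (-(2:ℤ) ^ b) (2 ^ b), |f (x - ((t : ℤ) : X K))| ≤ 5 * 2 ^ b * MX f x := by
  have hn : (0:ℤ) < 2 ^ K := by positivity
  set b' := min b K with hb'
  have hmap : ∀ t ∈ Icc (-(2:ℤ) ^ b) (2 ^ b),
      ((t : ℤ) : X K).valMinAbs ∈ (per K).filter (fun t => |t| ≤ 2 ^ b') := by
    intro t ht
    rw [mem_Icc] at ht
    have h1 := ZMod.valMinAbs_mem_Ioc ((t : ℤ) : X K)
    rw [Set.mem_Ioc] at h1
    push_cast at h1
    set u := ((t : ℤ) : X K).valMinAbs with hu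
    have hper : u ∈ per K := by rw [mem_per]; constructor <;> linarith [h1.1, h1.2]
    rw [mem_filter]
    refine ⟨hper, ?_⟩
    rw [mem_per] at hper
    rcases Nat.lt_or_ge K b with h | h
    · rw [hb', min_eq_right h.le, abs_le]
      constructor <;> linarith [hper.1, hper.2]
    · rw [hb', min_eq_left h]
      by_cases ht2 : -(2:ℤ) ^ K < 2 * t ∧ 2 * t ≤ 2 ^ K
      · have : u = t := by
          rw [hu, ZMod.valMinAbs_spec]
          refine ⟨rfl, ?_⟩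
          rw [Set.mem_Ioc]
          push_cast
          constructor <;> linarith [ht2.1, ht2.2]
        rw [this, abs_le]
        exact ht
      · rw [abs_le]
        have h3 : (2:ℤ) ^ K ≤ 2 * 2 ^ b := by
          by_contra hc
          apply ht2
          constructor <;> linarith [ht.1, ht.2]
        constructor <;> linarith [hper.1, hper.2]
  rw [← sum_fiberwise_of_maps_to hmap]
  have hfib : ∀ u ∈ (per K).filter (fun t => |t| ≤ 2 ^ b'),
      ∑ t ∈ (Icc (-(2:ℤ) ^ b) (2 ^ b)).filter (fun t => ((t : ℤ) : X K).valMinAbs = u),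
        |f (x - ((t : ℤ) : X K))| ≤ 5 * |f (x - ((u : ℤ) : X K))| := by
    intro u hu
    rw [mem_filter, mem_per] at hu
    have h1 : ∀ t ∈ (Icc (-(2:ℤ) ^ b) (2 ^ b)).filter
        (fun t => ((t : ℤ) : X K).valMinAbs = u),
        |f (x - ((t : ℤ) : X K))| = |f (x - ((u : ℤ) : X K))| := by
      intro t ht
      rw [mem_filter] at ht
      have : ((t : ℤ) : X K) = ((u : ℤ) : X K) := by rw [← ht.2, ZMod.coe_valMinAbs]
      rw [this]
    rw [sum_congr rfl h1, sum_const, nsmul_eq_mul]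
    refine mul_le_mul_of_nonneg_right ?_ (abs_nonneg _)
    have hsub : (Icc (-(2:ℤ) ^ b) (2 ^ b)).filter (fun t => ((t : ℤ) : X K).valMinAbs = u)
        ⊆ (Icc (-2 : ℤ) 2).image (fun j => u + j * 2 ^ K) := by
      intro t ht
      rw [mem_filter, mem_Icc] at ht
      have h2 : ((t : ℤ) : X K) = ((u : ℤ) : X K) := by rw [← ht.2, ZMod.coe_valMinAbs]
      rw [ZMod.intCast_eq_intCast_iff_dvd_sub] at h2
      obtain ⟨j, hj⟩ := h2
      push_cast at hj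
      have hb2 : (2:ℤ) ^ b ≤ 2 * 2 ^ K := by
        rw [← pow_succ']
        exact pow_le_pow_right₀ (by norm_num) hb
      rw [mem_image]
      refine ⟨-j, ?_, by linarith⟩
      rw [mem_Icc]
      have hu1 := hu.1.1
      have hu2 := hu.1.2
      have e1 : u - t = 2 ^ K * j := hj
      constructor
      · by_contra hc
        push Not at hc
        have : 3 ≤ j := by linarith
        nlinarith [ht.1.1, ht.1.2]
      · by_contra hc
        push Not at hc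
        have : j ≤ -3 := by linarith
        nlinarith [ht.1.1, ht.1.2]
    have hc := (card_le_card hsub).trans card_image_le
    have : ((Icc (-2 : ℤ) 2).card : ℝ) = 5 := by simp
    calc (((Icc (-(2:ℤ) ^ b) (2 ^ b)).filter
          (fun t => ((t : ℤ) : X K).valMinAbs = u)).card : ℝ) ≤ ((Icc (-2 : ℤ) 2).card : ℝ) := by
          exact_mod_cast hc
      _ = 5 := this
  refine (sum_le_sum hfib).trans ?_
  rw [← mul_sum]
  have h4 := sum_ball_per f x (b := b') (min_le_right _ _)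
  have h5 : (2:ℝ) ^ b' ≤ 2 ^ b := pow_le_pow_right₀ (by norm_num) (min_le_left _ _)
  have h6 := MX_nonneg f x
  nlinarith [mul_le_mul_of_nonneg_right h5 h6]

/-! ## The kernel estimate -/

theorem sinc {z : ℝ} (hz : 0 < z) (hz' : z ≤ Real.pi / 2) : |1 / Real.sin z - 1 / z| ≤ 1 := by
  have hs0 : 0 < Real.sin z := Real.sin_pos_of_pos_of_lt_pi hz (by linarith [Real.pi_pos])
  have hlt : Real.sin z < z := Real.sin_lt hz
  have hj : 2 / Real.pi * z ≤ Real.sin z := Real.mul_le_sin hz.le hz'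
  have hpi := Real.pi_pos
  have hpi4 := Real.pi_lt_four
  have h1 : 0 ≤ 1 / Real.sin z - 1 / z := by
    rw [sub_nonneg]
    exact one_div_le_one_div_of_le hs0 hlt.le
  rw [abs_of_nonneg h1]
  have h2 : z - z ^ 3 / 6 < Real.sin z := Real.sin_gt_sub_cube hz
  have e : 1 / Real.sin z - 1 / z = (z - Real.sin z) / (Real.sin z * z) := by
    field_simp
  rw [e, div_le_one (by positivity)]
  have h3 : z ^ 2 / 2 ≤ Real.sin z * z := by
    have : z / 2 ≤ Real.sin z := by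
      refine le_trans ?_ hj
      rw [div_mul_eq_mul_div, div_le_div_iff₀ (by norm_num) hpi]
      nlinarith
    nlinarith
  have h4 : z ^ 3 / 6 ≤ z ^ 2 / 3 := by nlinarith [sq_nonneg z]
  nlinarith [sq_nonneg z]

/-- the kernel difference for one `t > 0` inside the period, scales up to `4R 2^κ` -/
theorem ker_in {K ρ κ N : ℕ} {t : ℝ} (ht0 : 0 < t) (ht : 2 * t ≤ 2 ^ K)
    (htR : 4 * (2:ℝ) ^ ρ < t) (htκ : t ≤ 4 * (2 ^ ρ * 2 ^ κ)) :
    |DN N (Real.pi * t / 2 ^ K) / 2 ^ K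
      + PP (2 ^ ρ) κ t * Real.sin ((2 * N + 1) * (Real.pi * t / 2 ^ K)) / (2 * Real.pi)|
      ≤ 1 / 2 ^ K + 300 / (2 ^ ρ * t) + 4 / (2 ^ ρ * 2 ^ κ) := by
  set n : ℝ := 2 ^ K with hn
  have hn0 : 0 < n := by positivity
  have hpi := Real.pi_pos
  set z := Real.pi * t / n with hz
  have hz0 : 0 < z := by positivity
  have hz1 : z ≤ Real.pi / 2 := by
    rw [hz, div_le_div_iff₀ hn0 (by norm_num)]
    nlinarith
  have hs0 : 0 < Real.sin z := Real.sin_pos_of_pos_of_lt_pi hz0 (by linarith)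
  have hD : DN N z = Real.sin ((2 * N + 1) * z) / Real.sin z := by
    rw [eq_div_iff hs0.ne']; exact DN_mul_sin N z
  have hR1 : 1 ≤ 2 ^ ρ := Nat.one_le_two_pow
  have hfar := PP_far (R := 2 ^ ρ) hR1 κ (t := t) (by push_cast; exact htR.le)
  push_cast at hfar
  set P := PP (2 ^ ρ) κ t with hP
  set S := Real.sin ((2 * N + 1) * z) with hS
  have hS1 : |S| ≤ 1 := Real.abs_sin_le_one _
  have e : DN N z / n + P * S / (2 * Real.pi)
      = S * ((1 / Real.sin z - 1 / z) / n + (P + 2 / t) / (2 * Real.pi)) := by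
    rw [hD, hz]
    have hs1 : Real.sin (Real.pi * t / n) ≠ 0 := hs0.ne'
    field_simp
    ring
  rw [e, abs_mul]
  have h1 : |(1 / Real.sin z - 1 / z) / n + (P + 2 / t) / (2 * Real.pi)|
      ≤ 1 / n + (1600 / (2 ^ ρ * t) + 6 * t / (2 ^ ρ * 2 ^ κ) ^ 2) / (2 * Real.pi) := by
    refine (abs_add_le _ _).trans (add_le_add ?_ ?_)
    · rw [abs_div, abs_of_pos hn0]
      exact div_le_div_of_nonneg_right (sinc hz0 hz1) hn0.le
    · rw [abs_div, abs_of_pos (by positivity : 0 < 2 * Real.pi)]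
      exact div_le_div_of_nonneg_right hfar (by positivity)
  have h2 : (1600 / (2 ^ ρ * t) + 6 * t / ((2:ℝ) ^ ρ * 2 ^ κ) ^ 2) / (2 * Real.pi)
      ≤ 300 / (2 ^ ρ * t) + 4 / (2 ^ ρ * 2 ^ κ) := by
    have hpi3 := Real.pi_gt_three
    have hc : (0:ℝ) < 2 ^ ρ * 2 ^ κ := by positivity
    have h3 : 6 * t / ((2:ℝ) ^ ρ * 2 ^ κ) ^ 2 ≤ 24 / (2 ^ ρ * 2 ^ κ) := by
      rw [div_le_div_iff₀ (by positivity) hc]
      nlinarith [mul_le_mul_of_nonneg_right htκ (sq_nonneg ((2:ℝ) ^ ρ * 2 ^ κ)), pow_pos hc 2]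
    rw [div_le_iff₀ (by positivity)]
    have h4 : (0:ℝ) < 1 / (2 ^ ρ * t) := by positivity
    have h5 : (0:ℝ) < 1 / (2 ^ ρ * 2 ^ κ) := by positivity
    have e1 : 1600 / ((2:ℝ) ^ ρ * t) = 1600 * (1 / (2 ^ ρ * t)) := by ring
    have e2 : 300 / ((2:ℝ) ^ ρ * t) = 300 * (1 / (2 ^ ρ * t)) := by ring
    have e3 : 24 / ((2:ℝ) ^ ρ * 2 ^ κ) = 24 * (1 / (2 ^ ρ * 2 ^ κ)) := by ring
    have e4 : 4 / ((2:ℝ) ^ ρ * 2 ^ κ) = 4 * (1 / (2 ^ ρ * 2 ^ κ)) := by ring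
    rw [e3] at h3
    rw [e1, e2, e4]
    nlinarith
  calc |S| * |(1 / Real.sin z - 1 / z) / n + (P + 2 / t) / (2 * Real.pi)|
      ≤ 1 * |(1 / Real.sin z - 1 / z) / n + (P + 2 / t) / (2 * Real.pi)| :=
        mul_le_mul_of_nonneg_right hS1 (abs_nonneg _)
    _ ≤ _ := by rw [one_mul]; linarith

theorem DN_neg (N : ℕ) (φ : ℝ) : DN N (-φ) = DN N φ := by
  unfold DN
  simp only [mul_neg, Real.cos_neg]

/-- the error weight at distance `s` -/
noncomputable def Wt (K ρ κ N : ℕ) (s : ℝ) : ℝ :=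
  (if s ≤ 4 * (2:ℝ) ^ ρ then 1201 * (2 * (N:ℝ) + 1) / (2:ℝ) ^ K else 0) + 600 / (2:ℝ) ^ K
    + (if 4 * (2:ℝ) ^ ρ < s then 300 / ((2:ℝ) ^ ρ * s) else 0)
    + (if s ≤ 4 * ((2:ℝ) ^ ρ * 2 ^ κ) then 4 / ((2:ℝ) ^ ρ * 2 ^ κ) else 0)

theorem pos_bound {K ρ κ N : ℕ} {s : ℝ} (hs : 0 < s) (b : Prop) [Decidable b]
    (hb : b → 2 * s ≤ 2 ^ K ∧ s ≤ 4 * (2 ^ ρ * 2 ^ κ))
    (hnb : ¬ b → 2 ^ K ≤ 2 * s ∨ 4 * (2 ^ ρ * 2 ^ κ) < s) :
    |(if b then DN N (Real.pi * s / 2 ^ K) / 2 ^ K else 0)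
      + PP (2 ^ ρ) κ s * Real.sin ((2 * N + 1) * (Real.pi * s / 2 ^ K)) / (2 * Real.pi)|
      ≤ Wt K ρ κ N s := by
  have hn0 : (0:ℝ) < 2 ^ K := by positivity
  have hR0 : (0:ℝ) < 2 ^ ρ := by positivity
  have hκ1 : (1:ℝ) ≤ 2 ^ κ := one_le_pow₀ (by norm_num)
  have hpi := Real.pi_pos
  have hpi3 := Real.pi_gt_three
  have hR1 : 1 ≤ 2 ^ ρ := Nat.one_le_two_pow
  have hS1 : |Real.sin ((2 * N + 1) * (Real.pi * s / 2 ^ K))| ≤ 1 := Real.abs_sin_le_one _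
  have w1 : (0:ℝ) ≤ 600 / 2 ^ K := by positivity
  have w2 : (0:ℝ) ≤ 1201 * (2 * N + 1) / 2 ^ K := by positivity
  have w3 : (0:ℝ) ≤ 300 / (2 ^ ρ * s) := by positivity
  have w4 : (0:ℝ) ≤ 4 / (2 ^ ρ * 2 ^ κ) := by positivity
  have hPS : |PP (2 ^ ρ) κ s * Real.sin ((2 * N + 1) * (Real.pi * s / 2 ^ K)) / (2 * Real.pi)|
      ≤ |PP (2 ^ ρ) κ s| / (2 * Real.pi) := by
    rw [abs_div, abs_mul, abs_of_pos (by positivity : 0 < 2 * Real.pi)]
    refine div_le_div_of_nonneg_right ?_ (by positivity)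
    exact mul_le_of_le_one_right (abs_nonneg _) hS1
  unfold Wt
  rcases le_or_gt s (4 * (2:ℝ) ^ ρ) with h4 | h4
  · -- near
    rw [if_pos h4, if_neg (not_lt.2 h4)]
    have hS : |Real.sin ((2 * N + 1) * (Real.pi * s / 2 ^ K))|
        ≤ (2 * N + 1) * (Real.pi * s / 2 ^ K) := by
      have h0 : 0 ≤ (2 * (N:ℝ) + 1) * (Real.pi * s / 2 ^ K) := by positivity
      have h := Real.abs_sin_le_abs (x := (2 * N + 1) * (Real.pi * s / 2 ^ K))
      rwa [abs_of_nonneg h0] at h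
    have hP := PP_near (R := 2 ^ ρ) hR1 κ hs (by push_cast; exact h4)
    push_cast at hP
    have hb1 : |if b then DN N (Real.pi * s / 2 ^ K) / 2 ^ K else 0| ≤ (2 * N + 1) / 2 ^ K := by
      split_ifs
      · rw [abs_div, abs_of_pos hn0]
        exact div_le_div_of_nonneg_right (abs_DN_le _ _) hn0.le
      · rw [abs_zero]; positivity
    have hb2 : |PP (2 ^ ρ) κ s * Real.sin ((2 * N + 1) * (Real.pi * s / 2 ^ K)) / (2 * Real.pi)|
        ≤ 600 * ((2 * N + 1) / 2 ^ K) := by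
      rw [abs_div, abs_mul, abs_of_pos (by positivity : 0 < 2 * Real.pi),
        div_le_iff₀ (by positivity)]
      calc |PP (2 ^ ρ) κ s| * |Real.sin ((2 * N + 1) * (Real.pi * s / 2 ^ K))|
          ≤ 300 / 2 ^ ρ * ((2 * N + 1) * (Real.pi * s / 2 ^ K)) :=
            mul_le_mul hP hS (abs_nonneg _) (by positivity)
        _ = (300 * (2 * N + 1) * Real.pi / 2 ^ K) * (s / 2 ^ ρ) := by field_simp
        _ ≤ (300 * (2 * N + 1) * Real.pi / 2 ^ K) * 4 := by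
            refine mul_le_mul_of_nonneg_left ?_ (by positivity)
            rw [div_le_iff₀ hR0]
            exact h4
        _ = 600 * ((2 * N + 1) / 2 ^ K) * (2 * Real.pi) := by ring
    have w5 : (0:ℝ) ≤ (if s ≤ 4 * (2 ^ ρ * 2 ^ κ) then 4 / (2 ^ ρ * 2 ^ κ) else 0) := by
      split_ifs
      · exact w4
      · exact le_rfl
    have e : 1201 * (2 * (N:ℝ) + 1) / 2 ^ K = 1201 * ((2 * N + 1) / 2 ^ K) := by ring
    have w6 : (0:ℝ) ≤ (2 * N + 1) / 2 ^ K := by positivity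
    refine (abs_add_le _ _).trans ?_
    rw [e]
    linarith
  · rw [if_neg (not_le.2 h4), if_pos h4]
    by_cases hB : b
    · obtain ⟨h1, h2⟩ := hb hB
      rw [if_pos hB, if_pos h2]
      refine (ker_in hs h1 h4 h2).trans ?_
      have : (1:ℝ) / 2 ^ K ≤ 600 / 2 ^ K := by
        rw [div_le_div_iff_of_pos_right hn0]; norm_num
      linarith
    · rw [if_neg hB, zero_add]
      refine hPS.trans ?_
      rcases le_or_gt s (4 * (2 ^ ρ * 2 ^ κ)) with h5 | h5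
      · rw [if_pos h5]
        have h6 : (2:ℝ) ^ K ≤ 2 * s := by
          rcases hnb hB with h | h
          · exact h
          · exact absurd h (not_lt.2 h5)
        have hP := PP_le (R := 2 ^ ρ) hR1 κ hs
        have h7 : |PP (2 ^ ρ) κ s| / (2 * Real.pi) ≤ 600 / 2 ^ K := by
          rw [div_le_iff₀ (by positivity)]
          refine hP.trans ?_
          rw [div_mul_eq_mul_div, div_le_div_iff₀ hs hn0]
          nlinarith
        linarith
      · rw [if_neg (not_le.2 h5)]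
        have hm := (PP_main (R := 2 ^ ρ) hR1 κ hs).1
        push_cast at hm
        have e1 : Kap (s / 2 ^ ρ) = -2 := Kap_of_four_le (by rw [le_div_iff₀ hR0]; linarith)
        have e2 : Kap (s / (2 ^ ρ * 2 ^ κ)) = -2 :=
          Kap_of_four_le (by rw [le_div_iff₀ (by positivity)]; linarith)
        rw [e1, e2, sub_self, zero_div, sub_zero] at hm
        have h7 : |PP (2 ^ ρ) κ s| / (2 * Real.pi) ≤ 300 / (2 ^ ρ * s) := by
          rw [div_le_iff₀ (by positivity)]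
          refine hm.trans ?_
          rw [div_mul_eq_mul_div]
          refine div_le_div_of_nonneg_right ?_ (by positivity)
          nlinarith
        linarith

open Classical in
/-- the difference of the kernels at the integer `t` -/
noncomputable def Dl (K ρ κ N : ℕ) (t : ℤ) : ℝ :=
  (if t ∈ per K ∧ |(t:ℝ)| ≤ 4 * (2 ^ ρ * 2 ^ κ) then DN N (Real.pi * t / 2 ^ K) / 2 ^ K else 0)
    + PP (2 ^ ρ) κ t * Real.sin ((2 * N + 1) * (Real.pi * t / 2 ^ K)) / (2 * Real.pi)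

theorem Dl_le (K ρ κ N : ℕ) (t : ℤ) : |Dl K ρ κ N t| ≤ Wt K ρ κ N |(t:ℝ)| := by
  have hn0 : (0:ℝ) < 2 ^ K := by positivity
  have hR0 : (0:ℝ) < 2 ^ ρ := by positivity
  unfold Dl
  rcases lt_trichotomy t 0 with ht | ht | ht
  · have ht' : (t:ℝ) < 0 := by exact_mod_cast ht
    have hs : 0 < -(t:ℝ) := by linarith
    rw [abs_of_neg ht']
    have key := pos_bound (K := K) (ρ := ρ) (κ := κ) (N := N) hs
      (t ∈ per K ∧ -(t:ℝ) ≤ 4 * (2 ^ ρ * 2 ^ κ)) ?_ ?_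
    · have e1 : Real.pi * -(t:ℝ) / 2 ^ K = -(Real.pi * t / 2 ^ K) := by ring
      rw [e1, DN_neg, PP_neg] at key
      have e2 : (2 * (N:ℝ) + 1) * -(Real.pi * t / 2 ^ K) = -((2 * N + 1) * (Real.pi * t / 2 ^ K)) := by
        ring
      rw [e2, Real.sin_neg, neg_mul_neg] at key
      exact key
    · rintro ⟨h1, h2⟩
      rw [mem_per] at h1
      refine ⟨?_, h2⟩
      have : -(2:ℝ) ^ K < 2 * t := by exact_mod_cast h1.1
      linarith
    · intro h
      by_cases h2 : -(t:ℝ) ≤ 4 * (2 ^ ρ * 2 ^ κ)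
      · left
        by_contra hc
        push Not at hc
        apply h
        refine ⟨?_, h2⟩
        rw [mem_per]
        constructor
        · have : -(2:ℝ) ^ K < 2 * t := by linarith
          exact_mod_cast this
        · have : (0:ℤ) < 2 ^ K := by positivity
          omega
      · right; push Not at h2; exact h2
  · subst ht
    have hP : PP (2 ^ ρ) κ 0 = 0 := by
      have := PP_neg (2 ^ ρ) κ 0
      rw [neg_zero] at this
      linarith
    rw [Int.cast_zero, hP]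
    simp only [abs_zero, zero_mul, zero_div, add_zero, mul_zero]
    unfold Wt
    have h1 : (0:ℝ) ≤ 4 * 2 ^ ρ := by positivity
    have h2 : (0:ℝ) ≤ 4 * (2 ^ ρ * 2 ^ κ) := by positivity
    rw [if_pos h1, if_neg (not_lt.2 h1), if_pos h2]
    have w1 : (0:ℝ) ≤ 600 / 2 ^ K := by positivity
    have w4 : (0:ℝ) ≤ 4 / (2 ^ ρ * 2 ^ κ) := by positivity
    have h3 : |if (0:ℤ) ∈ per K ∧ (0:ℝ) ≤ 4 * (2 ^ ρ * 2 ^ κ) then DN N 0 / 2 ^ K else 0|
        ≤ 1201 * (2 * N + 1) / 2 ^ K := by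
      split_ifs
      · rw [abs_div, abs_of_pos hn0]
        refine div_le_div_of_nonneg_right ((abs_DN_le _ _).trans ?_) hn0.le
        have : (0:ℝ) ≤ N := Nat.cast_nonneg _
        linarith
      · rw [abs_zero]; positivity
    linarith
  · have ht' : (0:ℝ) < t := by exact_mod_cast ht
    rw [abs_of_pos ht']
    refine pos_bound ht' _ ?_ ?_
    · rintro ⟨h1, h2⟩
      rw [mem_per] at h1
      refine ⟨?_, h2⟩
      exact_mod_cast h1.2
    · intro h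
      by_cases h2 : (t:ℝ) ≤ 4 * (2 ^ ρ * 2 ^ κ)
      · left
        by_contra hc
        push Not at hc
        apply h
        refine ⟨?_, h2⟩
        rw [mem_per]
        have h3 : 2 * t < 2 ^ K := by exact_mod_cast hc
        have : (0:ℤ) < 2 ^ K := by positivity
        constructor <;> omega
      · right; push Not at h2; exact h2

/-! ## Summing the error -/

theorem inv_le_dyadic {L : ℕ} {s : ℝ} (h1 : 1 ≤ s) (h2 : s ≤ 2 ^ L) :
    1 / s ≤ ∑ b ∈ range (L + 1), (if s ≤ 2 ^ b then 2 / (2:ℝ) ^ b else 0) := by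
  have hs : 0 < s := by linarith
  induction L with
  | zero =>
    have : s = 1 := le_antisymm (by simpa using h2) h1
    rw [this]
    simp
  | succ L ih =>
    rw [sum_range_succ]
    have hterm : (0:ℝ) ≤ (if s ≤ 2 ^ (L + 1) then 2 / (2:ℝ) ^ (L + 1) else 0) := by
      split_ifs; positivity
    rcases le_or_gt s (2 ^ L) with h | h
    · linarith [ih h]
    · rw [if_pos h2]
      have hnn : (0:ℝ) ≤ ∑ b ∈ range (L + 1), (if s ≤ 2 ^ b then 2 / (2:ℝ) ^ b else 0) := by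
        refine sum_nonneg fun b _ => ?_
        split_ifs
        · positivity
        · exact le_rfl
      have : 1 / s ≤ 2 / (2:ℝ) ^ (L + 1) := by
        rw [div_le_div_iff₀ hs (by positivity), pow_succ]
        linarith
      linarith

theorem sum_Wt {K ρ κ N : ℕ} (hρ : ρ + κ + 1 ≤ K) (f : X K → ℝ) (H : ℝ) (hH : ∀ y, |f y| ≤ H)
    (x : X K) :
    ∑ t ∈ Icc (-(2:ℤ) ^ (K + 1)) (2 ^ (K + 1)), |f (x - ((t : ℤ) : X K))| * Wt K ρ κ N |(t:ℝ)|
      ≤ 9000 * (1 + K / 2 ^ ρ) * MX f x + 11000 * (2 ^ ρ * (2 * N + 1) / 2 ^ K) * H := by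
  have hn0 : (0:ℝ) < 2 ^ K := by positivity
  have hR0 : (0:ℝ) < 2 ^ ρ := by positivity
  have hM := MX_nonneg f x
  have hH0 : 0 ≤ H := (abs_nonneg _).trans (hH 0)
  set I := Icc (-(2:ℤ) ^ (K + 1)) (2 ^ (K + 1)) with hI
  set g : ℤ → ℝ := fun t => |f (x - ((t : ℤ) : X K))| with hg
  have hg0 : ∀ t, 0 ≤ g t := fun t => abs_nonneg _
  -- the four parts
  have p1 : ∑ t ∈ I, g t * (if |(t:ℝ)| ≤ 4 * (2:ℝ) ^ ρ then 1201 * (2 * (N:ℝ) + 1) / (2:ℝ) ^ K else 0)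
      ≤ 11000 * (2 ^ ρ * (2 * N + 1) / 2 ^ K) * H := by
    have h1 : ∀ t ∈ I, g t * (if |(t:ℝ)| ≤ 4 * (2:ℝ) ^ ρ then 1201 * (2 * (N:ℝ) + 1) / (2:ℝ) ^ K else 0)
        = if t ∈ Icc (-(4 * (2:ℤ) ^ ρ)) (4 * 2 ^ ρ) then g t * (1201 * (2 * (N:ℝ) + 1) / (2:ℝ) ^ K)
          else 0 := by
      intro t _
      have : |(t:ℝ)| ≤ 4 * (2:ℝ) ^ ρ ↔ t ∈ Icc (-(4 * (2:ℤ) ^ ρ)) (4 * 2 ^ ρ) := by
        rw [mem_Icc, ← abs_le, ← Int.cast_abs]
        constructor
        · intro h; exact_mod_cast h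
        · intro h; exact_mod_cast h
      simp only [this]
      split_ifs
      · rfl
      · rw [mul_zero]
    rw [sum_congr rfl h1, ← sum_filter]
    calc ∑ t ∈ I.filter (fun t => t ∈ Icc (-(4 * (2:ℤ) ^ ρ)) (4 * 2 ^ ρ)),
          g t * (1201 * (2 * (N:ℝ) + 1) / (2:ℝ) ^ K)
        ≤ ∑ _t ∈ I.filter (fun t => t ∈ Icc (-(4 * (2:ℤ) ^ ρ)) (4 * 2 ^ ρ)),
          H * (1201 * (2 * (N:ℝ) + 1) / (2:ℝ) ^ K) := by
          refine sum_le_sum fun t _ => mul_le_mul_of_nonneg_right (hH _) (by positivity)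
      _ = ((I.filter (fun t => t ∈ Icc (-(4 * (2:ℤ) ^ ρ)) (4 * 2 ^ ρ))).card : ℝ)
          * (H * (1201 * (2 * (N:ℝ) + 1) / (2:ℝ) ^ K)) := by
          rw [sum_const, nsmul_eq_mul]
      _ ≤ (9 * 2 ^ ρ) * (H * (1201 * (2 * (N:ℝ) + 1) / (2:ℝ) ^ K)) := by
          refine mul_le_mul_of_nonneg_right ?_ (by positivity)
          have h2 : (I.filter (fun t => t ∈ Icc (-(4 * (2:ℤ) ^ ρ)) (4 * 2 ^ ρ))).card
              ≤ (Icc (-(4 * (2:ℤ) ^ ρ)) (4 * 2 ^ ρ)).card :=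
            card_le_card fun t ht => (mem_filter.1 ht).2
          have h3 : (Icc (-(4 * (2:ℤ) ^ ρ)) (4 * 2 ^ ρ)).card = (8 * 2 ^ ρ + 1) := by
            rw [Int.card_Icc]
            have : (4:ℤ) * 2 ^ ρ + 1 - -(4 * 2 ^ ρ) = ((8 * 2 ^ ρ + 1 : ℕ) : ℤ) := by
              push_cast; ring
            rw [this, Int.toNat_natCast]
          rw [h3] at h2
          have h4 : ((I.filter (fun t => t ∈ Icc (-(4 * (2:ℤ) ^ ρ)) (4 * 2 ^ ρ))).card : ℝ)
              ≤ ((8 * 2 ^ ρ + 1 : ℕ) : ℝ) := by exact_mod_cast h2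
          push_cast at h4
          have h5 : (1:ℝ) ≤ 2 ^ ρ := one_le_pow₀ (by norm_num)
          linarith
      _ ≤ 11000 * (2 ^ ρ * (2 * N + 1) / 2 ^ K) * H := by
          have h6 : 0 ≤ 2 ^ ρ * (2 * (N:ℝ) + 1) / 2 ^ K * H := by positivity
          have e : (9 * (2:ℝ) ^ ρ) * (H * (1201 * (2 * (N:ℝ) + 1) / (2:ℝ) ^ K))
              = 10809 * (2 ^ ρ * (2 * (N:ℝ) + 1) / 2 ^ K * H) := by ring
          rw [e, mul_assoc]
          linarith
  have p2 : ∑ t ∈ I, g t * (600 / (2:ℝ) ^ K) ≤ 6000 * MX f x := by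
    rw [← sum_mul]
    have h := sum_ball f x (b := K + 1) le_rfl
    calc (∑ t ∈ I, g t) * (600 / (2:ℝ) ^ K) ≤ (5 * 2 ^ (K + 1) * MX f x) * (600 / (2:ℝ) ^ K) :=
          mul_le_mul_of_nonneg_right h (by positivity)
      _ = 6000 * MX f x := by rw [pow_succ]; field_simp; ring
  have p4 : ∑ t ∈ I, g t * (if |(t:ℝ)| ≤ 4 * ((2:ℝ) ^ ρ * 2 ^ κ) then 4 / ((2:ℝ) ^ ρ * 2 ^ κ) else 0)
      ≤ 80 * MX f x := by
    have hc : (4:ℝ) * ((2:ℝ) ^ ρ * 2 ^ κ) = ((2 ^ (ρ + κ + 2) : ℤ) : ℝ) := by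
      push_cast; rw [pow_add, pow_add]; ring
    have h1 : ∀ t ∈ I, g t * (if |(t:ℝ)| ≤ 4 * ((2:ℝ) ^ ρ * 2 ^ κ) then 4 / ((2:ℝ) ^ ρ * 2 ^ κ) else 0)
        = if t ∈ Icc (-(2:ℤ) ^ (ρ + κ + 2)) (2 ^ (ρ + κ + 2)) then g t * (4 / ((2:ℝ) ^ ρ * 2 ^ κ))
          else 0 := by
      intro t _
      have : |(t:ℝ)| ≤ 4 * ((2:ℝ) ^ ρ * 2 ^ κ) ↔ t ∈ Icc (-(2:ℤ) ^ (ρ + κ + 2)) (2 ^ (ρ + κ + 2)) := by
        rw [hc, mem_Icc, ← abs_le, ← Int.cast_abs, Int.cast_le]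
      simp only [this]
      split_ifs
      · rfl
      · rw [mul_zero]
    rw [sum_congr rfl h1, ← sum_filter]
    calc ∑ t ∈ I.filter (fun t => t ∈ Icc (-(2:ℤ) ^ (ρ + κ + 2)) (2 ^ (ρ + κ + 2))),
          g t * (4 / ((2:ℝ) ^ ρ * 2 ^ κ))
        ≤ ∑ t ∈ Icc (-(2:ℤ) ^ (ρ + κ + 2)) (2 ^ (ρ + κ + 2)), g t * (4 / ((2:ℝ) ^ ρ * 2 ^ κ)) :=
          sum_le_sum_of_subset_of_nonneg (fun t ht => (mem_filter.1 ht).2)
            fun t _ _ => mul_nonneg (hg0 t) (by positivity)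
      _ ≤ (5 * 2 ^ (ρ + κ + 2) * MX f x) * (4 / ((2:ℝ) ^ ρ * 2 ^ κ)) := by
          rw [← sum_mul]
          exact mul_le_mul_of_nonneg_right (sum_ball f x (by omega)) (by positivity)
      _ = 80 * MX f x := by rw [pow_add, pow_add]; field_simp; ring
  have p3 : ∑ t ∈ I, g t * (if 4 * (2:ℝ) ^ ρ < |(t:ℝ)| then 300 / ((2:ℝ) ^ ρ * |(t:ℝ)|) else 0)
      ≤ 9000 * (K / 2 ^ ρ) * MX f x := by
    have hK1 : 1 ≤ K := by omega
    have h1 : ∀ t ∈ I, g t * (if 4 * (2:ℝ) ^ ρ < |(t:ℝ)| then 300 / ((2:ℝ) ^ ρ * |(t:ℝ)|) else 0)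
        ≤ ∑ b ∈ range (K + 2), (if t ∈ Icc (-(2:ℤ) ^ b) (2 ^ b) then g t else 0)
            * (600 / 2 ^ b / 2 ^ ρ) := by
      intro t ht
      have hnn : 0 ≤ ∑ b ∈ range (K + 2), (if t ∈ Icc (-(2:ℤ) ^ b) (2 ^ b) then g t else 0)
            * (600 / 2 ^ b / (2:ℝ) ^ ρ) := by
        refine sum_nonneg fun b _ => mul_nonneg ?_ (by positivity)
        split_ifs
        · exact hg0 t
        · exact le_rfl
      split_ifs with h
      · have hR1 : (1:ℝ) ≤ 2 ^ ρ := one_le_pow₀ (by norm_num)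
        have hs1 : 1 ≤ |(t:ℝ)| := by linarith
        have hs2 : |(t:ℝ)| ≤ 2 ^ (K + 1) := by
          rw [hI, mem_Icc, ← abs_le] at ht
          rw [← Int.cast_abs]
          exact_mod_cast ht
        have h2 := inv_le_dyadic hs1 hs2
        have h3 : g t * (300 / ((2:ℝ) ^ ρ * |(t:ℝ)|)) = g t * (300 / (2:ℝ) ^ ρ) * (1 / |(t:ℝ)|) := by
          field_simp
        rw [h3]
        refine (mul_le_mul_of_nonneg_left h2 (mul_nonneg (hg0 t) (by positivity))).trans ?_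
        rw [mul_sum]
        refine le_of_eq (sum_congr rfl fun b _ => ?_)
        have h4 : |(t:ℝ)| ≤ 2 ^ b ↔ t ∈ Icc (-(2:ℤ) ^ b) (2 ^ b) := by
          rw [mem_Icc, ← abs_le, ← Int.cast_abs]
          constructor
          · intro h; exact_mod_cast h
          · intro h; exact_mod_cast h
        simp only [h4]
        split_ifs
        · field_simp; ring
        · rw [mul_zero, zero_mul]
      · rw [mul_zero]; exact hnn
    refine (sum_le_sum h1).trans ?_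
    rw [sum_comm]
    have h5 : ∀ b ∈ range (K + 2), ∑ t ∈ I, (if t ∈ Icc (-(2:ℤ) ^ b) (2 ^ b) then g t else 0)
        * (600 / 2 ^ b / (2:ℝ) ^ ρ) ≤ 3000 / 2 ^ ρ * MX f x := by
      intro b hb
      have hb' := mem_range.1 hb
      rw [← sum_mul, ← sum_filter]
      calc (∑ t ∈ I.filter (fun t => t ∈ Icc (-(2:ℤ) ^ b) (2 ^ b)), g t) * (600 / 2 ^ b / (2:ℝ) ^ ρ)
          ≤ (∑ t ∈ Icc (-(2:ℤ) ^ b) (2 ^ b), g t) * (600 / 2 ^ b / (2:ℝ) ^ ρ) := by
            refine mul_le_mul_of_nonneg_right ?_ (by positivity)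
            exact sum_le_sum_of_subset_of_nonneg (fun t ht => (mem_filter.1 ht).2)
              fun t _ _ => hg0 t
        _ ≤ (5 * 2 ^ b * MX f x) * (600 / 2 ^ b / (2:ℝ) ^ ρ) :=
            mul_le_mul_of_nonneg_right (sum_ball f x (by omega)) (by positivity)
        _ = 3000 / 2 ^ ρ * MX f x := by field_simp; ring
    refine (sum_le_sum h5).trans ?_
    rw [sum_const, card_range, nsmul_eq_mul]
    push_cast
    have hK2 : (1:ℝ) ≤ K := by exact_mod_cast hK1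
    have h6 : 0 ≤ MX f x / 2 ^ ρ := by positivity
    have e1 : ((K:ℝ) + 2) * (3000 / 2 ^ ρ * MX f x) = (3000 * K + 6000) * (MX f x / 2 ^ ρ) := by ring
    have e2 : 9000 * ((K:ℝ) / 2 ^ ρ) * MX f x = 9000 * K * (MX f x / 2 ^ ρ) := by ring
    rw [e1, e2]
    exact mul_le_mul_of_nonneg_right (by linarith) h6
  have hsum : ∑ t ∈ I, g t * Wt K ρ κ N |(t:ℝ)|
      = ∑ t ∈ I, g t * (if |(t:ℝ)| ≤ 4 * (2:ℝ) ^ ρ then 1201 * (2 * (N:ℝ) + 1) / (2:ℝ) ^ K else 0)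
        + ∑ t ∈ I, g t * (600 / (2:ℝ) ^ K)
        + ∑ t ∈ I, g t * (if 4 * (2:ℝ) ^ ρ < |(t:ℝ)| then 300 / ((2:ℝ) ^ ρ * |(t:ℝ)|) else 0)
        + ∑ t ∈ I, g t * (if |(t:ℝ)| ≤ 4 * ((2:ℝ) ^ ρ * 2 ^ κ) then 4 / ((2:ℝ) ^ ρ * 2 ^ κ) else 0) := by
    rw [← sum_add_distrib, ← sum_add_distrib, ← sum_add_distrib]
    refine sum_congr rfl fun t _ => ?_
    unfold Wt
    ring
  rw [hsum]
  linarith

/-! ## The partial sums: heavy part, light part, error -/

/-- the part of the partial sum at distances `> 4 R 2^κ` -/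
noncomputable def SGt {K : ℕ} (ρ κ N : ℕ) (f : X K → ℝ) (x : X K) : ℝ :=
  (∑ t ∈ (per K).filter (fun t : ℤ => 4 * ((2:ℝ) ^ ρ * 2 ^ κ) < |(t:ℝ)|),
    f (x - ((t : ℤ) : X K)) * DN N (Real.pi * t / 2 ^ K)) / 2 ^ K

/-- **PET, pointwise**: the partial sum is the far part plus the averaged shift kernel -/
theorem pet_dir {K ρ κ N : ℕ} (hρ : ρ + κ + 1 ≤ K) (f : X K → ℝ) (H : ℝ) (hH : ∀ y, |f y| ≤ H)
    (x : X K) :
    ‖SG N (fun y => (f y : ℂ)) x - ((SGt ρ κ N f x : ℝ) : ℂ)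
      + (((∑ t ∈ Icc (-(2:ℤ) ^ (K + 1)) (2 ^ (K + 1)), PP (2 ^ ρ) κ t
          * Real.sin ((2 * N + 1) * (Real.pi * t / 2 ^ K)) * f (x - ((t : ℤ) : X K))) / (2 * Real.pi)
          : ℝ) : ℂ)‖
      ≤ 9000 * (1 + K / 2 ^ ρ) * MX f x + 11000 * (2 ^ ρ * (2 * N + 1) / 2 ^ K) * H := by
  classical
  have hsub : per K ⊆ Icc (-(2:ℤ) ^ (K + 1)) (2 ^ (K + 1)) := by
    intro t ht
    rw [mem_per] at ht
    rw [mem_Icc, pow_succ]
    have : (0:ℤ) < 2 ^ K := by positivity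
    constructor <;> linarith [ht.1, ht.2]
  have key : (∑ t ∈ per K, f (x - ((t : ℤ) : X K)) * DN N (Real.pi * t / 2 ^ K)) / 2 ^ K
      - SGt ρ κ N f x
      + (∑ t ∈ Icc (-(2:ℤ) ^ (K + 1)) (2 ^ (K + 1)), PP (2 ^ ρ) κ t
          * Real.sin ((2 * N + 1) * (Real.pi * t / 2 ^ K)) * f (x - ((t : ℤ) : X K))) / (2 * Real.pi)
      = ∑ t ∈ Icc (-(2:ℤ) ^ (K + 1)) (2 ^ (K + 1)), f (x - ((t : ℤ) : X K)) * Dl K ρ κ N t := by
    unfold SGt
    rw [sum_filter, ← sub_div, ← sum_sub_distrib, sum_div, sum_div]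
    have e1 : ∑ t ∈ per K, (f (x - ((t : ℤ) : X K)) * DN N (Real.pi * t / 2 ^ K)
        - if 4 * ((2:ℝ) ^ ρ * 2 ^ κ) < |(t:ℝ)| then
            f (x - ((t : ℤ) : X K)) * DN N (Real.pi * t / 2 ^ K) else 0) / 2 ^ K
        = ∑ t ∈ Icc (-(2:ℤ) ^ (K + 1)) (2 ^ (K + 1)), f (x - ((t : ℤ) : X K)) *
          (if t ∈ per K ∧ |(t:ℝ)| ≤ 4 * (2 ^ ρ * 2 ^ κ) then DN N (Real.pi * t / 2 ^ K) / 2 ^ K
            else 0) := by
      rw [← sum_subset hsub]
      · refine sum_congr rfl fun t ht => ?_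
        by_cases h : |(t:ℝ)| ≤ 4 * (2 ^ ρ * 2 ^ κ)
        · rw [if_neg (not_lt.2 h), if_pos ⟨ht, h⟩]; ring
        · rw [if_pos (not_le.1 h), if_neg (fun hc => h hc.2)]; ring
      · intro t _ ht
        rw [if_neg (fun hc => ht hc.1), mul_zero]
    rw [e1, ← sum_add_distrib]
    refine sum_congr rfl fun t _ => ?_
    unfold Dl
    ring
  rw [SG_eq, ← Complex.ofReal_sub, ← Complex.ofReal_add, Complex.norm_real, key]
  refine (norm_sum_le _ _).trans (le_trans (sum_le_sum fun t _ => ?_) (sum_Wt hρ f H hH x))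
  rw [norm_mul, Real.norm_eq_abs, Real.norm_eq_abs]
  exact mul_le_mul_of_nonneg_left (Dl_le K ρ κ N t) (abs_nonneg _)

end Vale.Agent.P091.PET
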