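import Vale.Agent.P091.MathlibUsed

/-!
# P091, row PET (helper514), part 1: the kernel of the averaged dyadic shift

`kap` is the piecewise linear kernel of Petermichl's dyadic shift averaged over translations
(in units of the quarter length), `Kap` its primitive.  The dyadic sum over the quarter lengths
`r 2^i`, `R ≤ r < 2R`, with weights `1/r`, is `-2/t` up to a relative error `1/R`.
-/

set_option autoImplicit false

open Finset

namespace Vale.Agent.P091.PET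

/-- the averaged kernel: odd, `0, -3, 0, 1, 0` at `0, 1, 2, 3, 4`, linear in between -/
noncomputable def kap (w : ℝ) : ℝ :=
  (-|w + 4| + 2 * |w + 3| + 2 * |w + 2| - 6 * |w + 1| + 6 * |w - 1| - 2 * |w - 2|
    - 2 * |w - 3| + |w - 4|) / 2

/-- a primitive of `kap`, `Kap 0 = 0`, `Kap w = -2` for `w ≥ 4` -/
noncomputable def Kap (w : ℝ) : ℝ :=
  (-((w + 4) * |w + 4|) + 2 * ((w + 3) * |w + 3|) + 2 * ((w + 2) * |w + 2|)
    - 6 * ((w + 1) * |w + 1|) + 6 * ((w - 1) * |w - 1|) - 2 * ((w - 2) * |w - 2|)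
    - 2 * ((w - 3) * |w - 3|) + (w - 4) * |w - 4|) / 4 - 2

theorem kap_neg (w : ℝ) : kap (-w) = - kap w := by
  unfold kap
  have e : ∀ c : ℝ, |-w + c| = |w - c| := fun c => by
    rw [show -w + c = -(w - c) by ring, abs_neg]
  have e' : ∀ c : ℝ, |-w - c| = |w + c| := fun c => by
    rw [show -w - c = -(w + c) by ring, abs_neg]
  rw [e, e, e, e, e', e', e', e']
  ring

theorem kap_zero : kap 0 = 0 := by
  have := kap_neg 0
  rw [neg_zero] at this
  linarith

theorem Kap_zero : Kap 0 = 0 := by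
  unfold Kap
  norm_num [abs_of_pos, abs_of_neg]

theorem kap_of_four_le {w : ℝ} (h : 4 ≤ w) : kap w = 0 := by
  unfold kap
  rw [abs_of_nonneg (by linarith : (0:ℝ) ≤ w + 4), abs_of_nonneg (by linarith : (0:ℝ) ≤ w + 3),
    abs_of_nonneg (by linarith : (0:ℝ) ≤ w + 2), abs_of_nonneg (by linarith : (0:ℝ) ≤ w + 1),
    abs_of_nonneg (by linarith : (0:ℝ) ≤ w - 1), abs_of_nonneg (by linarith : (0:ℝ) ≤ w - 2),
    abs_of_nonneg (by linarith : (0:ℝ) ≤ w - 3), abs_of_nonneg (by linarith : (0:ℝ) ≤ w - 4)]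
  ring

theorem kap_of_four_le_abs {w : ℝ} (h : 4 ≤ |w|) : kap w = 0 := by
  rcases le_abs.1 h with h | h
  · exact kap_of_four_le h
  · have := kap_of_four_le h
    rw [kap_neg] at this
    linarith

theorem Kap_of_four_le {w : ℝ} (h : 4 ≤ w) : Kap w = -2 := by
  unfold Kap
  rw [abs_of_nonneg (by linarith : (0:ℝ) ≤ w + 4), abs_of_nonneg (by linarith : (0:ℝ) ≤ w + 3),
    abs_of_nonneg (by linarith : (0:ℝ) ≤ w + 2), abs_of_nonneg (by linarith : (0:ℝ) ≤ w + 1),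
    abs_of_nonneg (by linarith : (0:ℝ) ≤ w - 1), abs_of_nonneg (by linarith : (0:ℝ) ≤ w - 2),
    abs_of_nonneg (by linarith : (0:ℝ) ≤ w - 3), abs_of_nonneg (by linarith : (0:ℝ) ≤ w - 4)]
  ring

theorem abs_sub_abs_le' (a b c : ℝ) : abs (abs (a + c) - abs (b + c)) ≤ |a - b| := by
  have := abs_abs_sub_abs_le_abs_sub (a + c) (b + c)
  rwa [show a + c - (b + c) = a - b by ring] at this

theorem abs_sub_abs_le'' (a b c : ℝ) : abs (abs (a - c) - abs (b - c)) ≤ |a - b| := by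
  have := abs_abs_sub_abs_le_abs_sub (a - c) (b - c)
  rwa [show a - c - (b - c) = a - b by ring] at this

theorem kap_lip (a b : ℝ) : |kap a - kap b| ≤ 11 * |a - b| := by
  unfold kap
  have h1 := abs_le.1 (abs_sub_abs_le' a b 4)
  have h2 := abs_le.1 (abs_sub_abs_le' a b 3)
  have h3 := abs_le.1 (abs_sub_abs_le' a b 2)
  have h4 := abs_le.1 (abs_sub_abs_le' a b 1)
  have h5 := abs_le.1 (abs_sub_abs_le'' a b 1)
  have h6 := abs_le.1 (abs_sub_abs_le'' a b 2)
  have h7 := abs_le.1 (abs_sub_abs_le'' a b 3)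
  have h8 := abs_le.1 (abs_sub_abs_le'' a b 4)
  rw [abs_le]
  constructor <;> linarith [h1.1, h1.2, h2.1, h2.2, h3.1, h3.2, h4.1, h4.2, h5.1, h5.2, h6.1,
    h6.2, h7.1, h7.2, h8.1, h8.2]

theorem kap_bound (w : ℝ) : |kap w| ≤ 44 := by
  rcases le_or_gt 4 |w| with h | h
  · rw [kap_of_four_le_abs h, abs_zero]; norm_num
  · have := kap_lip w 0
    rw [kap_zero, sub_zero, sub_zero] at this
    linarith

theorem kap_le (w : ℝ) : |kap w| ≤ 11 * |w| := by
  have := kap_lip w 0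
  rwa [kap_zero, sub_zero, sub_zero] at this

theorem sq_aux (a b : ℝ) : |a * |a| - b * |b| - 2 * |a| * (a - b)| ≤ (a - b) ^ 2 := by
  rcases le_or_gt 0 a with ha | ha <;> rcases le_or_gt 0 b with hb | hb
  · rw [abs_of_nonneg ha, abs_of_nonneg hb, abs_le]
    constructor <;> nlinarith [sq_nonneg (a - b)]
  · rw [abs_of_nonneg ha, abs_of_neg hb, abs_le]
    constructor <;> nlinarith [sq_nonneg (a - b), sq_nonneg a, sq_nonneg b,
      mul_nonneg ha (le_of_lt (neg_pos.2 hb))]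
  · rw [abs_of_neg ha, abs_of_nonneg hb, abs_le]
    constructor <;> nlinarith [sq_nonneg (a - b), sq_nonneg a, sq_nonneg b,
      mul_nonneg hb (le_of_lt (neg_pos.2 ha))]
  · rw [abs_of_neg ha, abs_of_neg hb, abs_le]
    constructor <;> nlinarith [sq_nonneg (a - b)]

/-- `Kap' = kap` with a quadratic error -/
theorem Kap_quad (a b : ℝ) : |Kap a - Kap b - kap a * (a - b)| ≤ 6 * (a - b) ^ 2 := by
  unfold Kap kap
  have f : ∀ c : ℝ, |(a + c) * |a + c| - (b + c) * |b + c| - 2 * |a + c| * (a - b)|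
      ≤ (a - b) ^ 2 := fun c => by
    have := sq_aux (a + c) (b + c)
    rwa [show a + c - (b + c) = a - b by ring] at this
  have f' : ∀ c : ℝ, |(a - c) * |a - c| - (b - c) * |b - c| - 2 * |a - c| * (a - b)|
      ≤ (a - b) ^ 2 := fun c => by
    have := sq_aux (a - c) (b - c)
    rwa [show a - c - (b - c) = a - b by ring] at this
  have h1 := abs_le.1 (f 4)
  have h2 := abs_le.1 (f 3)
  have h3 := abs_le.1 (f 2)
  have h4 := abs_le.1 (f 1)
  have h5 := abs_le.1 (f' 1)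
  have h6 := abs_le.1 (f' 2)
  have h7 := abs_le.1 (f' 3)
  have h8 := abs_le.1 (f' 4)
  have hs := sq_nonneg (a - b)
  rw [abs_le]
  generalize hd : a - b = d at *
  generalize hA1 : |a + 4| = A1 at *
  generalize hA2 : |a + 3| = A2 at *
  generalize hA3 : |a + 2| = A3 at *
  generalize hA4 : |a + 1| = A4 at *
  generalize hA5 : |a - 1| = A5 at *
  generalize hA6 : |a - 2| = A6 at *
  generalize hA7 : |a - 3| = A7 at *
  generalize hA8 : |a - 4| = A8 at *
  constructor <;> linarith [h1.1, h1.2, h2.1, h2.2, h3.1, h3.2, h4.1, h4.2, h5.1, h5.2, h6.1,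
    h6.2, h7.1, h7.2, h8.1, h8.2]

theorem Kap_le (w : ℝ) : |Kap w| ≤ 6 * w ^ 2 := by
  have := Kap_quad 0 w
  rw [Kap_zero, kap_zero] at this
  simp only [zero_sub, zero_mul, sub_zero, abs_neg] at this
  nlinarith [this]

/-- one cell of the Riemann sum -/
theorem cell {t u h : ℝ} (ht : 0 < t) (hu : 0 < u) (hh : 0 < h) :
    |h * kap (t / u) / u ^ 2 - (Kap (t / u) - Kap (t / (u + h))) / t| ≤ 100 * h ^ 2 / u ^ 3 ∧
    (4 * (u + h) ≤ t →
      h * kap (t / u) / u ^ 2 - (Kap (t / u) - Kap (t / (u + h))) / t = 0) := by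
  have huh : 0 < u + h := by linarith
  have hz : 4 * (u + h) ≤ t →
      h * kap (t / u) / u ^ 2 - (Kap (t / u) - Kap (t / (u + h))) / t = 0 := by
    intro h4
    have e1 : 4 ≤ t / (u + h) := by rw [le_div_iff₀ huh]; exact h4
    have e2 : 4 ≤ t / u := by rw [le_div_iff₀ hu]; linarith
    rw [kap_of_four_le e2, Kap_of_four_le e1, Kap_of_four_le e2]
    simp
  refine ⟨?_, hz⟩
  rcases le_or_gt (4 * (u + h)) t with h4 | h4
  · rw [hz h4, abs_zero]; positivity
  have hd : t / u - t / (u + h) = t * h / (u * (u + h)) := by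
    field_simp
    ring
  have key := Kap_quad (t / u) (t / (u + h))
  rw [hd] at key
  have e1 : h * kap (t / u) / u ^ 2 - (Kap (t / u) - Kap (t / (u + h))) / t
      = kap (t / u) * (h ^ 2 / (u ^ 2 * (u + h)))
        - (Kap (t / u) - Kap (t / (u + h)) - kap (t / u) * (t * h / (u * (u + h)))) / t := by
    field_simp
    ring
  rw [e1]
  have b1 : |kap (t / u) * (h ^ 2 / (u ^ 2 * (u + h)))| ≤ 44 * (h ^ 2 / u ^ 3) := by
    rw [abs_mul]
    have : |h ^ 2 / (u ^ 2 * (u + h))| ≤ h ^ 2 / u ^ 3 := by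
      rw [abs_of_pos (by positivity)]
      apply div_le_div_of_nonneg_left (by positivity) (by positivity)
      nlinarith [sq_nonneg u, mul_pos (pow_pos hu 2) hh]
    exact mul_le_mul (kap_bound _) this (abs_nonneg _) (by norm_num)
  have b2 : |(Kap (t / u) - Kap (t / (u + h)) - kap (t / u) * (t * h / (u * (u + h)))) / t|
      ≤ 48 * (h ^ 2 / u ^ 3) := by
    rw [abs_div, abs_of_pos ht, div_le_iff₀ ht]
    refine key.trans ?_
    have : 6 * (t * h / (u * (u + h))) ^ 2 = 6 * t * (t * h ^ 2 / (u ^ 2 * (u + h) ^ 2)) := by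
      field_simp
    rw [this]
    have h5 : t * h ^ 2 / (u ^ 2 * (u + h) ^ 2) ≤ 4 * (h ^ 2 / u ^ 3) := by
      rw [div_le_iff₀ (by positivity)]
      have : 4 * (h ^ 2 / u ^ 3) * (u ^ 2 * (u + h) ^ 2) = 4 * h ^ 2 * ((u + h) ^ 2 / u) := by
        field_simp
      rw [this]
      have h6 : u + h ≤ (u + h) ^ 2 / u := by
        rw [le_div_iff₀ hu]
        nlinarith [mul_pos huh hh]
      have h7 : t ≤ 4 * ((u + h) ^ 2 / u) := by linarith
      nlinarith [pow_pos hh 2]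
    have h8 : 0 ≤ h ^ 2 / u ^ 3 := by positivity
    nlinarith [mul_le_mul_of_nonneg_left h5 ht.le]
  calc _ ≤ |kap (t / u) * (h ^ 2 / (u ^ 2 * (u + h)))|
        + |(Kap (t / u) - Kap (t / (u + h)) - kap (t / u) * (t * h / (u * (u + h)))) / t| :=
        abs_sub _ _
    _ ≤ 44 * (h ^ 2 / u ^ 3) + 48 * (h ^ 2 / u ^ 3) := add_le_add b1 b2
    _ ≤ 100 * h ^ 2 / u ^ 3 := by
        have : 0 ≤ h ^ 2 / u ^ 3 := by positivity
        rw [mul_div_assoc]
        linarith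

/-! ## The Riemann sum -/

/-- the dyadic sum over the quarter lengths `(R + k) 2^i`, `k < R`, `i < m` -/
noncomputable def PP (R m : ℕ) (t : ℝ) : ℝ :=
  ∑ i ∈ range m, ∑ k ∈ range R,
    (1 / ((R + k : ℕ) : ℝ)) * (kap (t / (((R + k : ℕ) : ℝ) * 2 ^ i)) / (((R + k : ℕ) : ℝ) * 2 ^ i))

theorem PP_neg (R m : ℕ) (t : ℝ) : PP R m (-t) = - PP R m t := by
  unfold PP
  rw [← sum_neg_distrib]
  refine sum_congr rfl fun i _ => ?_
  rw [← sum_neg_distrib]
  refine sum_congr rfl fun k _ => ?_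
  rw [neg_div, kap_neg]
  ring

theorem geo {X : ℝ} (hX : 0 < X) (m : ℕ) :
    ∑ i ∈ range m, (if X < 2 ^ i then (1:ℝ) / 2 ^ i else 0) ≤ max 0 (2 / X - 2 / 2 ^ m) := by
  induction m with
  | zero => simp
  | succ m ih =>
    rw [sum_range_succ]
    by_cases h : X < 2 ^ m
    · rw [if_pos h]
      have h1 : (0:ℝ) ≤ 2 / X - 2 / 2 ^ m := by
        rw [sub_nonneg]
        exact div_le_div_of_nonneg_left (by norm_num) hX h.le
      rw [max_eq_right h1] at ih
      refine le_max_of_le_right ?_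
      have h2 : (2:ℝ) / 2 ^ (m + 1) = 1 / 2 ^ m := by
        rw [pow_succ]; field_simp
      have h3 : (2:ℝ) / 2 ^ m = 2 * (1 / 2 ^ m) := by ring
      rw [h2]
      rw [h3] at ih
      linarith
    · rw [if_neg h, add_zero]
      push Not at h
      have h1 : 2 / X - 2 / 2 ^ m ≤ (0:ℝ) := by
        rw [sub_nonpos]
        exact div_le_div_of_nonneg_left (by norm_num) (by positivity) h
      rw [max_eq_left h1] at ih
      exact ih.trans (le_max_left _ _)

/-- the sum over `k` at one scale -/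
theorem scale {R : ℕ} (hR : 1 ≤ R) (i : ℕ) {t : ℝ} (ht : 0 < t) :
    |(∑ k ∈ range R, (1 / ((R + k : ℕ) : ℝ))
        * (kap (t / (((R + k : ℕ) : ℝ) * 2 ^ i)) / (((R + k : ℕ) : ℝ) * 2 ^ i)))
      - (Kap (t / (R * 2 ^ i)) - Kap (t / (R * 2 ^ (i + 1)))) / t|
      ≤ 100 / (R:ℝ) ^ 2 * (if t / (8 * R) < 2 ^ i then 1 / 2 ^ i else 0) := by
  have hR0 : (0:ℝ) < R := by exact_mod_cast hR
  have h2 : (0:ℝ) < 2 ^ i := by positivity
  have tel : (Kap (t / (R * 2 ^ i)) - Kap (t / (R * 2 ^ (i + 1)))) / t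
      = ∑ k ∈ range R, (Kap (t / (((R + k : ℕ) : ℝ) * 2 ^ i))
          - Kap (t / (((R + k : ℕ) : ℝ) * 2 ^ i + 2 ^ i))) / t := by
    rw [← sum_div]
    congr 1
    have := sum_range_sub' (fun k : ℕ => Kap (t / (((R + k : ℕ) : ℝ) * 2 ^ i))) R
    have e : ∀ k : ℕ, ((R + k : ℕ) : ℝ) * 2 ^ i + 2 ^ i = ((R + (k + 1) : ℕ) : ℝ) * 2 ^ i := by
      intro k; push_cast; ring
    simp only [e]
    rw [this]
    congr 3
    push_cast
    ring
  rw [tel, ← sum_sub_distrib]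
  have hcell : ∀ k ∈ range R,
      |(1 / ((R + k : ℕ) : ℝ))
        * (kap (t / (((R + k : ℕ) : ℝ) * 2 ^ i)) / (((R + k : ℕ) : ℝ) * 2 ^ i))
        - (Kap (t / (((R + k : ℕ) : ℝ) * 2 ^ i))
          - Kap (t / (((R + k : ℕ) : ℝ) * 2 ^ i + 2 ^ i))) / t|
      ≤ 100 / (R:ℝ) ^ 3 * (if t / (8 * R) < 2 ^ i then 1 / 2 ^ i else 0) := by
    intro k hk
    have hk' : (k:ℝ) + 1 ≤ R := by exact_mod_cast mem_range.1 hk
    have hr : (R:ℝ) ≤ ((R + k : ℕ) : ℝ) := by push_cast; linarith [(Nat.cast_nonneg k : (0:ℝ) ≤ k)]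
    have hr0 : (0:ℝ) < ((R + k : ℕ) : ℝ) := by linarith
    have hu : (0:ℝ) < ((R + k : ℕ) : ℝ) * 2 ^ i := by positivity
    obtain ⟨c1, c2⟩ := cell ht hu h2
    have e1 : (1 / ((R + k : ℕ) : ℝ))
        * (kap (t / (((R + k : ℕ) : ℝ) * 2 ^ i)) / (((R + k : ℕ) : ℝ) * 2 ^ i))
        = 2 ^ i * kap (t / (((R + k : ℕ) : ℝ) * 2 ^ i)) / (((R + k : ℕ) : ℝ) * 2 ^ i) ^ 2 := by
      field_simp
    rw [e1]
    by_cases h : t / (8 * R) < 2 ^ i
    · rw [if_pos h]
      refine c1.trans ?_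
      have e2 : 100 * ((2:ℝ) ^ i) ^ 2 / (((R + k : ℕ) : ℝ) * 2 ^ i) ^ 3
          = 100 / ((R + k : ℕ) : ℝ) ^ 3 * (1 / 2 ^ i) := by
        field_simp
      rw [e2]
      refine mul_le_mul_of_nonneg_right ?_ (by positivity)
      exact div_le_div_of_nonneg_left (by norm_num) (by positivity)
        (pow_le_pow_left₀ hR0.le hr 3)
    · rw [if_neg h, mul_zero]
      push Not at h
      rw [le_div_iff₀ (by positivity)] at h
      rw [c2, abs_zero]
      have : ((R + k : ℕ) : ℝ) + 1 ≤ 2 * R := by push_cast; linarith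
      nlinarith
  calc _ ≤ ∑ k ∈ range R, 100 / (R:ℝ) ^ 3 * (if t / (8 * R) < 2 ^ i then 1 / 2 ^ i else 0) :=
        (abs_sum_le_sum_abs _ _).trans (sum_le_sum hcell)
    _ = 100 / (R:ℝ) ^ 2 * (if t / (8 * R) < 2 ^ i then 1 / 2 ^ i else 0) := by
        rw [sum_const, card_range, nsmul_eq_mul]
        field_simp

/-- the Riemann sum error -/
theorem PP_main {R : ℕ} (hR : 1 ≤ R) (m : ℕ) {t : ℝ} (ht : 0 < t) :
    |PP R m t - (Kap (t / R) - Kap (t / (R * 2 ^ m))) / t| ≤ 1600 / (R * t) ∧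
    |PP R m t - (Kap (t / R) - Kap (t / (R * 2 ^ m))) / t| ≤ 200 / (R:ℝ) ^ 2 := by
  have hR0 : (0:ℝ) < R := by exact_mod_cast hR
  have tel : (Kap (t / R) - Kap (t / (R * 2 ^ m))) / t
      = ∑ i ∈ range m, (Kap (t / (R * 2 ^ i)) - Kap (t / (R * 2 ^ (i + 1)))) / t := by
    rw [← sum_div]
    congr 1
    have := sum_range_sub' (fun i : ℕ => Kap (t / (R * 2 ^ i))) m
    rw [this]
    simp
  have hb : |PP R m t - (Kap (t / R) - Kap (t / (R * 2 ^ m))) / t|
      ≤ 100 / (R:ℝ) ^ 2 * ∑ i ∈ range m, (if t / (8 * R) < 2 ^ i then (1:ℝ) / 2 ^ i else 0) := by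
    rw [tel, mul_sum]
    unfold PP
    rw [← sum_sub_distrib]
    exact (abs_sum_le_sum_abs _ _).trans (sum_le_sum fun i _ => scale hR i ht)
  have hX : 0 < t / (8 * R) := by positivity
  constructor
  · refine hb.trans ?_
    have h1 := geo hX m
    have h2 : max 0 (2 / (t / (8 * R)) - 2 / 2 ^ m) ≤ 16 * R / t := by
      apply max_le (by positivity)
      have : 2 / (t / (8 * R)) = 16 * R / t := by field_simp; ring
      rw [this]
      have : (0:ℝ) ≤ 2 / 2 ^ m := by positivity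
      linarith
    have e : 1600 / (R * t) = 100 / (R:ℝ) ^ 2 * (16 * R / t) := by field_simp; ring
    rw [e]
    exact mul_le_mul_of_nonneg_left (h1.trans h2) (by positivity)
  · refine hb.trans ?_
    have h1 : ∑ i ∈ range m, (if t / (8 * R) < 2 ^ i then (1:ℝ) / 2 ^ i else 0) ≤ 2 := by
      have h3 : ∑ i ∈ range m, (if t / (8 * R) < 2 ^ i then (1:ℝ) / 2 ^ i else 0)
          ≤ ∑ i ∈ range m, ((1:ℝ) / 2) ^ i := by
        refine sum_le_sum fun i _ => ?_
        have e0 : ((1:ℝ) / 2) ^ i = 1 / 2 ^ i := by rw [div_pow, one_pow]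
        rw [e0]
        split_ifs
        · exact le_rfl
        · positivity
      refine h3.trans ?_
      exact sum_geometric_two_le m
    have e : 200 / (R:ℝ) ^ 2 = 100 / (R:ℝ) ^ 2 * 2 := by ring
    rw [e]
    exact mul_le_mul_of_nonneg_left h1 (by positivity)

theorem Kap_bound {w : ℝ} (hw : 0 ≤ w) : |Kap w| ≤ 96 := by
  rcases le_or_gt 4 w with h | h
  · rw [Kap_of_four_le h]; norm_num
  · refine (Kap_le w).trans ?_
    nlinarith

/-- the averaged kernel is `-2/t` -/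
theorem PP_far {R : ℕ} (hR : 1 ≤ R) (m : ℕ) {t : ℝ} (ht : 4 * (R:ℝ) ≤ t) :
    |PP R m t + 2 / t| ≤ 1600 / (R * t) + 6 * t / (R * 2 ^ m) ^ 2 := by
  have hR0 : (0:ℝ) < R := by exact_mod_cast hR
  have ht0 : 0 < t := by linarith
  have h1 := (PP_main hR m ht0).1
  have e1 : Kap (t / R) = -2 := Kap_of_four_le (by rw [le_div_iff₀ hR0]; exact ht)
  have h2 : |Kap (t / (R * 2 ^ m)) / t| ≤ 6 * t / (R * 2 ^ m) ^ 2 := by
    rw [abs_div, abs_of_pos ht0, div_le_iff₀ ht0]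
    refine (Kap_le _).trans (le_of_eq ?_)
    field_simp
  have e2 : PP R m t + 2 / t = (PP R m t - (Kap (t / R) - Kap (t / (R * 2 ^ m))) / t)
      - Kap (t / (R * 2 ^ m)) / t := by
    rw [e1]; ring
  rw [e2]
  exact (abs_sub _ _).trans (add_le_add h1 h2)

theorem PP_near {R : ℕ} (hR : 1 ≤ R) (m : ℕ) {t : ℝ} (ht0 : 0 < t) (ht : t ≤ 4 * (R:ℝ)) :
    |PP R m t| ≤ 300 / R := by
  have hR0 : (0:ℝ) < R := by exact_mod_cast hR
  have hR1 : (1:ℝ) ≤ R := by exact_mod_cast hR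
  have h1 := (PP_main hR m ht0).2
  have h2 : |Kap (t / R) / t| ≤ 24 / R := by
    rw [abs_div, abs_of_pos ht0, div_le_iff₀ ht0]
    refine (Kap_le _).trans ?_
    have : 6 * (t / R) ^ 2 = (6 / R ^ 2 * t) * t := by field_simp
    rw [this]
    refine mul_le_mul_of_nonneg_right ?_ ht0.le
    rw [div_mul_eq_mul_div, div_le_div_iff₀ (by positivity) hR0]
    nlinarith
  have h3 : |Kap (t / (R * 2 ^ m)) / t| ≤ 24 / R := by
    rw [abs_div, abs_of_pos ht0, div_le_iff₀ ht0]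
    refine (Kap_le _).trans ?_
    have h4 : t / (R * 2 ^ m) ≤ t / R := by
      apply div_le_div_of_nonneg_left ht0.le hR0
      nlinarith [(one_le_pow₀ (by norm_num : (1:ℝ) ≤ 2) : (1:ℝ) ≤ 2 ^ m)]
    have h5 : 6 * (t / (R * 2 ^ m)) ^ 2 ≤ 6 * (t / R) ^ 2 := by
      have h0 : 0 ≤ t / (R * 2 ^ m) := by positivity
      nlinarith
    refine h5.trans ?_
    have : 6 * (t / R) ^ 2 = (6 / R ^ 2 * t) * t := by field_simp
    rw [this]
    refine mul_le_mul_of_nonneg_right ?_ ht0.le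
    rw [div_mul_eq_mul_div, div_le_div_iff₀ (by positivity) hR0]
    nlinarith
  have h6 : 200 / (R:ℝ) ^ 2 ≤ 200 / R := by
    apply div_le_div_of_nonneg_left (by norm_num) hR0
    nlinarith
  have e2 : PP R m t = (PP R m t - (Kap (t / R) - Kap (t / (R * 2 ^ m))) / t)
      + (Kap (t / R) / t - Kap (t / (R * 2 ^ m)) / t) := by ring
  rw [e2]
  refine (abs_add_le _ _).trans ?_
  have h7 := abs_sub (Kap (t / R) / t) (Kap (t / (R * 2 ^ m)) / t)
  have e3 : 300 / (R:ℝ) = 200 / R + 24 / R + 24 / R + 52 / R := by ring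
  have e4 : (0:ℝ) ≤ 52 / R := by positivity
  linarith

/-- a crude bound for all `t` -/
theorem PP_le {R : ℕ} (hR : 1 ≤ R) (m : ℕ) {t : ℝ} (ht0 : 0 < t) :
    |PP R m t| ≤ 1800 / t := by
  have hR0 : (0:ℝ) < R := by exact_mod_cast hR
  have hR1 : (1:ℝ) ≤ R := by exact_mod_cast hR
  have h1 := (PP_main hR m ht0).1
  have h2 : |Kap (t / R) / t| ≤ 96 / t := by
    rw [abs_div, abs_of_pos ht0]
    exact div_le_div_of_nonneg_right (Kap_bound (by positivity)) ht0.le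
  have h3 : |Kap (t / (R * 2 ^ m)) / t| ≤ 96 / t := by
    rw [abs_div, abs_of_pos ht0]
    exact div_le_div_of_nonneg_right (Kap_bound (by positivity)) ht0.le
  have h4 : 1600 / (R * t) ≤ 1600 / t := by
    apply div_le_div_of_nonneg_left (by norm_num) ht0
    nlinarith
  have e2 : PP R m t = (PP R m t - (Kap (t / R) - Kap (t / (R * 2 ^ m))) / t)
      + (Kap (t / R) / t - Kap (t / (R * 2 ^ m)) / t) := by ring
  rw [e2]
  refine (abs_add_le _ _).trans ?_
  have h7 := abs_sub (Kap (t / R) / t) (Kap (t / (R * 2 ^ m)) / t)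
  have e3 : 1800 / t = 1600 / t + 96 / t + 96 / t + 8 / t := by ring
  have e4 : (0:ℝ) ≤ 8 / t := by positivity
  linarith

end Vale.Agent.P091.PET
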