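import Vale.Agent.P091.PET.H514.Dir
import Vale.Agent.P091.CH.H847.Trunc

/-!
# P091, row SWITCH (helper514): partial sums = tiles at the large scales + dyadic shifts at the
small scales, pointwise in `x`, with free truncation
-/

set_option autoImplicit false

open Finset

namespace Vale.Agent.P091.PET

open Vale.Agent.P091.CH

/-- **averaging over all grids with truncated shifts**: the offset is averaged over the length of
the top intervals of a larger grid -/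
theorem avg_Sh_trunc (R m κ : ℕ) (hκ : κ ≤ m) (F : ℤ → ℂ) (x : ℤ) {B : ℤ}
    (hB : 4 * (R:ℤ) * 2 ^ κ ≤ B) :
    ∑ k ∈ range R, ∑ a ∈ Ico (0:ℤ) (((R + k : ℕ) : ℤ) * 2 ^ (m + 1)),
      ((1 / (((R + k : ℕ) : ℝ) * (((R + k : ℕ) : ℝ) * 2 ^ (m + 1))) : ℝ) : ℂ) * Sh (R + k) κ a F x
      = ∑ t ∈ Ioo (-B) B, ((PP R κ t / 16 : ℝ) : ℂ) * F (x - t) := by
  have hk : ∀ k ∈ range R, ∑ a ∈ Ico (0:ℤ) (((R + k : ℕ) : ℤ) * 2 ^ (m + 1)),
      ((1 / (((R + k : ℕ) : ℝ) * (((R + k : ℕ) : ℝ) * 2 ^ (m + 1))) : ℝ) : ℂ) * Sh (R + k) κ a F x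
      = ∑ t ∈ Ioo (-B) B, ((∑ i ∈ range κ, (1 / ((R + k : ℕ) : ℝ))
        * (kap (t / (((R + k : ℕ) : ℝ) * 2 ^ i)) / (((R + k : ℕ) : ℝ) * 2 ^ i)) / 16 : ℝ) : ℂ)
          * F (x - t) := by
    intro k hk
    have hk' := mem_range.1 hk
    have hr : (0:ℤ) < ((R + k : ℕ) : ℤ) := by exact_mod_cast (by omega : 0 < R + k)
    have hr' : (0:ℝ) < ((R + k : ℕ) : ℝ) := by exact_mod_cast (by omega : 0 < R + k)
    generalize hrr : R + k = r at *
    have hr2 : (r:ℤ) ≤ 2 * R := by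
      have : r ≤ 2 * R := by omega
      exact_mod_cast this
    have hi : ∀ i ∈ range κ, ∑ a ∈ Ico (0:ℤ) ((r : ℤ) * 2 ^ (m + 1)), T ((r:ℤ) * 2 ^ i) a F x
        = ((2:ℂ) ^ (m - 1 - i)) * ∑ t ∈ Ioo (-B) B, ((kap (t / ((r : ℝ) * 2 ^ i)) / 4 : ℝ) : ℂ)
          * F (x - t) := by
      intro i hi
      have hi' := mem_range.1 hi
      have e1 : (r : ℤ) * 2 ^ (m + 1) = ((2 ^ (m - 1 - i) : ℕ) : ℤ) * (4 * ((r:ℤ) * 2 ^ i)) := by
        push_cast
        have : m + 1 = (m - 1 - i) + i + 2 := by omega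
        rw [this, pow_add, pow_add]
        ring
      rw [e1, avg_T (q := (r:ℤ) * 2 ^ i) (by positivity) F x (2 ^ (m - 1 - i)) (B := B)]
      · push_cast
        rfl
      · refine le_trans ?_ hB
        have h1 : (2:ℤ) ^ i * 2 ≤ 2 ^ κ := by
          rw [← pow_succ]
          exact pow_le_pow_right₀ (by norm_num) (by omega)
        have h2 : (0:ℤ) < 2 ^ i := by positivity
        nlinarith
    unfold Sh
    simp only [mul_sum]
    rw [sum_comm]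
    simp only [← mul_sum]
    rw [sum_congr rfl fun i hi' => by rw [hi i hi']]
    simp only [mul_sum]
    rw [sum_comm]
    refine sum_congr rfl fun t _ => ?_
    rw [Complex.ofReal_sum, sum_mul]
    refine sum_congr rfl fun i hi' => ?_
    have hi'' := mem_range.1 hi'
    have e2 : ((1 / ((r:ℝ) * ((r:ℝ) * 2 ^ (m + 1))) : ℝ) : ℂ) * (2:ℂ) ^ (m - 1 - i)
        = ((1 / ((r:ℝ) * ((r:ℝ) * 2 ^ i * 4)) : ℝ) : ℂ) := by
      have : (2:ℂ) ^ (m - 1 - i) = (((2:ℝ) ^ (m - 1 - i) : ℝ) : ℂ) := by push_cast; rfl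
      rw [this, ← Complex.ofReal_mul]
      congr 1
      have e3 : (2:ℝ) ^ (m + 1) = 2 ^ (m - 1 - i) * 2 ^ i * 4 := by
        have : m + 1 = (m - 1 - i) + i + 2 := by omega
        rw [this, pow_add, pow_add]
        norm_num
      rw [e3]
      field_simp
    rw [← mul_assoc, ← mul_assoc, e2, ← Complex.ofReal_mul]
    congr 2
    field_simp
    ring
  rw [sum_congr rfl hk, sum_comm]
  refine sum_congr rfl fun t _ => ?_
  rw [← sum_mul, ← Complex.ofReal_sum]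
  congr 2
  unfold PP
  rw [sum_comm, sum_div]
  refine sum_congr rfl fun k _ => ?_
  rw [sum_div]

/-- the modulated function: `y ↦ f(y) e^{-(2N+1) π i y / 2^K}` on the integers -/
noncomputable def md {K : ℕ} (N : ℕ) (f : X K → ℝ) (y : ℤ) : ℂ :=
  (f ((y : ℤ) : X K) : ℂ) * Complex.exp (-((2 * N + 1) * (Real.pi * y / 2 ^ K) : ℝ) * Complex.I)

/-- weight of the grids with leaf length `r` -/
noncomputable def gw (r m : ℕ) : ℝ := 1 / ((r:ℝ) * ((r:ℝ) * 2 ^ (m + 1)))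

theorem heavy_le {K ρ κ m N : ℕ} (hρ : ρ + κ + 1 ≤ K) (hκ : κ ≤ m) (f : X K → ℝ) (x : ℤ) :
    |(∑ t ∈ Icc (-(2:ℤ) ^ (K + 1)) (2 ^ (K + 1)), PP (2 ^ ρ) κ t
        * Real.sin ((2 * N + 1) * (Real.pi * t / 2 ^ K)) * f ((x : X K) - ((t : ℤ) : X K)))
        / (2 * Real.pi)|
      ≤ 3 * ∑ k ∈ range (2 ^ ρ), ∑ a ∈ Ico (0:ℤ) (((2 ^ ρ + k : ℕ) : ℤ) * 2 ^ (m + 1)),
        gw (2 ^ ρ + k) m * ‖Sh (2 ^ ρ + k) κ a (md N f) x‖ := by
  have hpi := Real.pi_pos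
  have hpi3 := Real.pi_gt_three
  set θ : ℝ := (2 * N + 1) * (Real.pi * x / 2 ^ K) with hθ
  have hIcc : Icc (-(2:ℤ) ^ (K + 1)) (2 ^ (K + 1)) = Ioo (-((2:ℤ) ^ (K + 1) + 1)) (2 ^ (K + 1) + 1) := by
    ext t
    rw [mem_Icc, mem_Ioo]
    omega
  have hB : 4 * ((2 ^ ρ : ℕ) : ℤ) * 2 ^ κ ≤ (2:ℤ) ^ (K + 1) + 1 := by
    push_cast
    have : (4:ℤ) * 2 ^ ρ * 2 ^ κ ≤ 2 ^ (K + 1) := by
      calc (4:ℤ) * 2 ^ ρ * 2 ^ κ = 2 ^ (ρ + κ + 2) := by rw [pow_add, pow_add]; ring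
        _ ≤ 2 ^ (K + 1) := pow_le_pow_right₀ (by norm_num) (by omega)
    linarith
  have havg := avg_Sh_trunc (2 ^ ρ) m κ hκ (md N f) x hB
  have him : (∑ t ∈ Icc (-(2:ℤ) ^ (K + 1)) (2 ^ (K + 1)), PP (2 ^ ρ) κ t
        * Real.sin ((2 * N + 1) * (Real.pi * t / 2 ^ K)) * f ((x : X K) - ((t : ℤ) : X K)))
      = (16 * Complex.exp (θ * Complex.I)
          * ∑ t ∈ Ioo (-((2:ℤ) ^ (K + 1) + 1)) (2 ^ (K + 1) + 1),
            ((PP (2 ^ ρ) κ t / 16 : ℝ) : ℂ) * md N f (x - t)).im := by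
    rw [hIcc, mul_sum, Complex.im_sum]
    refine sum_congr rfl fun t _ => ?_
    have e1 : (16 * Complex.exp (θ * Complex.I)
        * (((PP (2 ^ ρ) κ t / 16 : ℝ) : ℂ) * md N f (x - t)))
        = ((PP (2 ^ ρ) κ t * f ((x : X K) - ((t : ℤ) : X K)) : ℝ) : ℂ)
          * Complex.exp (((2 * N + 1) * (Real.pi * t / 2 ^ K) : ℝ) * Complex.I) := by
      unfold md
      have e2 : Complex.exp (θ * Complex.I)
          * Complex.exp (-((2 * N + 1) * (Real.pi * ((x - t : ℤ) : ℝ) / 2 ^ K) : ℝ) * Complex.I)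
          = Complex.exp (((2 * N + 1) * (Real.pi * t / 2 ^ K) : ℝ) * Complex.I) := by
        rw [← Complex.exp_add]
        congr 1
        rw [hθ]
        push_cast
        ring
      rw [← e2]
      push_cast
      ring
    rw [e1, Complex.im_ofReal_mul, Complex.exp_ofReal_mul_I_im]
    ring
  rw [him, ← havg, abs_div, abs_of_pos (by positivity : 0 < 2 * Real.pi), div_le_iff₀ (by positivity)]
  refine (Complex.abs_im_le_norm _).trans ?_
  rw [norm_mul, norm_mul, Complex.norm_exp_ofReal_mul_I, mul_one]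
  have h16 : ‖(16:ℂ)‖ = 16 := by norm_num
  rw [h16]
  have h1 : ‖∑ k ∈ range (2 ^ ρ), ∑ a ∈ Ico (0:ℤ) (((2 ^ ρ + k : ℕ) : ℤ) * 2 ^ (m + 1)),
      ((1 / (((2 ^ ρ + k : ℕ) : ℝ) * (((2 ^ ρ + k : ℕ) : ℝ) * 2 ^ (m + 1))) : ℝ) : ℂ)
        * Sh (2 ^ ρ + k) κ a (md N f) x‖
      ≤ ∑ k ∈ range (2 ^ ρ), ∑ a ∈ Ico (0:ℤ) (((2 ^ ρ + k : ℕ) : ℤ) * 2 ^ (m + 1)),
        gw (2 ^ ρ + k) m * ‖Sh (2 ^ ρ + k) κ a (md N f) x‖ := by
    refine (norm_sum_le _ _).trans (sum_le_sum fun k _ => ?_)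
    refine (norm_sum_le _ _).trans (sum_le_sum fun a _ => ?_)
    rw [norm_mul, Complex.norm_real, Real.norm_eq_abs]
    unfold gw
    rw [abs_of_nonneg (by positivity)]
  have h2 : 0 ≤ ∑ k ∈ range (2 ^ ρ), ∑ a ∈ Ico (0:ℤ) (((2 ^ ρ + k : ℕ) : ℤ) * 2 ^ (m + 1)),
        gw (2 ^ ρ + k) m * ‖Sh (2 ^ ρ + k) κ a (md N f) x‖ := (norm_nonneg _).trans h1
  nlinarith

/-! ## The light part: tiles -/

theorem half_DN {K : ℕ} {t : ℤ} (ht : t ∈ per K) (h0 : t ≠ 0) (N : ℕ) :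
    2 * (ch N ((t : ℤ) : X K) * (1 / (1 - ch (-1) ((t : ℤ) : X K)))).re
      = DN N (Real.pi * t / 2 ^ K) := by
  set φ : ℝ := Real.pi * t / 2 ^ K with hφ
  have hn0 : (0:ℝ) < 2 ^ K := by positivity
  have hpi := Real.pi_pos
  rw [mem_per] at ht
  have h1 : -(2:ℝ) ^ K < 2 * t := by exact_mod_cast ht.1
  have h2 : (2:ℝ) * t ≤ 2 ^ K := by exact_mod_cast ht.2
  have h0' : (t:ℝ) ≠ 0 := by exact_mod_cast h0
  have hφ1 : -(Real.pi / 2) ≤ φ := by
    rw [hφ, le_div_iff₀ hn0]; nlinarith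
  have hφ2 : φ ≤ Real.pi / 2 := by
    rw [hφ, div_le_iff₀ hn0]; nlinarith
  have hφ0 : φ ≠ 0 := by
    rw [hφ]; exact div_ne_zero (mul_ne_zero hpi.ne' h0') hn0.ne'
  have hs : Real.sin φ ≠ 0 := by
    rcases lt_or_gt_of_ne hφ0 with h | h
    · have := Real.sin_neg_of_neg_of_neg_pi_lt h (by linarith)
      exact this.ne
    · exact (Real.sin_pos_of_pos_of_lt_pi h (by linarith)).ne'
  have hsC : Complex.sin φ ≠ 0 := by
    rw [← Complex.ofReal_sin]; exact_mod_cast hs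
  have e1 : (1 - ch (-1) ((t : ℤ) : X K)) = 2 * Complex.I * Complex.sin φ * Complex.exp (-(φ * Complex.I)) := by
    rw [ch_int, ← hφ]
    have h3 : Complex.sin φ = (Complex.exp (-(φ * Complex.I)) - Complex.exp (φ * Complex.I)) * Complex.I / 2 := by
      rw [Complex.sin]; ring_nf
    rw [h3]
    have h4 : Complex.exp (2 * ((-1 : ℤ) : ℂ) * φ * Complex.I)
        = Complex.exp (-(φ * Complex.I)) * Complex.exp (-(φ * Complex.I)) := by
      rw [← Complex.exp_add]; congr 1; push_cast; ring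
    have h5 : Complex.exp (φ * Complex.I) * Complex.exp (-(φ * Complex.I)) = 1 := by
      rw [← Complex.exp_add, add_neg_cancel, Complex.exp_zero]
    rw [h4]
    linear_combination (-1 : ℂ) * h5
      + (Complex.exp (φ * Complex.I) * Complex.exp (-(φ * Complex.I))
        - Complex.exp (-(φ * Complex.I)) * Complex.exp (-(φ * Complex.I))) * Complex.I_mul_I
  have e2 : ch N ((t : ℤ) : X K) * (1 / (1 - ch (-1) ((t : ℤ) : X K)))
      = Complex.exp (((2 * N + 1) * φ : ℝ) * Complex.I) / (2 * Complex.I * Complex.sin φ) := by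
    rw [e1, ch_int, ← hφ]
    have h6 : Complex.exp (((2 * N + 1) * φ : ℝ) * Complex.I)
        = Complex.exp (2 * (N:ℤ) * φ * Complex.I) / Complex.exp (-(φ * Complex.I)) := by
      rw [← Complex.exp_sub]
      congr 1
      push_cast
      ring
    rw [h6]
    field_simp
  have e3 : (Complex.exp (((2 * N + 1) * φ : ℝ) * Complex.I) / (2 * Complex.I * Complex.sin φ)).re
      = Real.sin ((2 * N + 1) * φ) / (2 * Real.sin φ) := by
    have h7 : Complex.exp (((2 * N + 1) * φ : ℝ) * Complex.I) / (2 * Complex.I * Complex.sin φ)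
        = ((1 / (2 * Real.sin φ) : ℝ) : ℂ) * (-Complex.I * Complex.exp (((2 * N + 1) * φ : ℝ) * Complex.I)) := by
      push_cast
      field_simp
      rw [Complex.I_sq]
      ring
    rw [h7, Complex.re_ofReal_mul]
    have h8 : (-Complex.I * Complex.exp (((2 * N + 1) * φ : ℝ) * Complex.I)).re
        = Real.sin ((2 * N + 1) * φ) := by
      rw [neg_mul, Complex.neg_re, Complex.I_mul_re, Complex.exp_ofReal_mul_I_im, neg_neg]
    rw [h8]
    ring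
  rw [e2, e3, ← DN_mul_sin]
  field_simp

/-- the far part is twice the real part of 847's truncated kernel operator -/
theorem SGt_eq {K ρ κ N : ℕ} (hρ : ρ + κ + 2 ≤ K) (f : X K → ℝ) (x : X K) :
    SGt ρ κ N f x
      = 2 * (aveC (fun y => (f y : ℂ) * (ch N (x - y) * H847.HK (K - (ρ + κ + 2)) (x - y)))).re := by
  classical
  unfold SGt aveC
  have h2K : ((2:ℂ) ^ K) = (((2:ℝ) ^ K : ℝ) : ℂ) := by push_cast; rfl
  rw [h2K, Complex.div_ofReal_re, Complex.re_sum, sum_per_sub _ x, sum_filter, mul_div_assoc', mul_sum]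
  congr 1
  refine sum_congr rfl fun t ht => ?_
  rw [sub_sub_cancel, Complex.re_ofReal_mul]
  have hn0 : (0:ℝ) < 2 ^ K := by positivity
  have h3 : nrm ((t : ℤ) : X K) ≤ ((2:ℝ) ^ (K - (ρ + κ + 2)))⁻¹ ↔ |(t:ℝ)| ≤ 4 * (2 ^ ρ * 2 ^ κ) := by
    rw [nrm_per ht]
    have h4 : (2:ℝ) ^ K = 2 ^ (K - (ρ + κ + 2)) * (4 * (2 ^ ρ * 2 ^ κ)) := by
      have : (4:ℝ) * (2 ^ ρ * 2 ^ κ) = 2 ^ (ρ + κ + 2) := by rw [pow_add, pow_add]; ring
      rw [this, ← pow_add]; congr 1; omega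
    rw [h4, ← div_div, div_le_iff₀ (by positivity), div_le_iff₀ (by positivity)]
    have h5 : ((2:ℝ) ^ (K - (ρ + κ + 2)))⁻¹ * (4 * (2 ^ ρ * 2 ^ κ)) * 2 ^ (K - (ρ + κ + 2))
        = 4 * (2 ^ ρ * 2 ^ κ) := by field_simp
    rw [h5]
  unfold H847.HK
  by_cases h : |(t:ℝ)| ≤ 4 * (2 ^ ρ * 2 ^ κ)
  · rw [if_neg (not_lt.2 h), if_pos (h3.2 h), mul_zero, Complex.zero_re, mul_zero, mul_zero]
  · rw [if_pos (not_le.1 h), if_neg (fun hc => h (h3.1 hc))]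
    have ht0 : t ≠ 0 := by
      rintro rfl
      apply h
      simp only [Int.cast_zero, abs_zero]
      positivity
    rw [← half_DN ht ht0 N]
    ring

/-- the tile sum of the scales `k < κ'` -/
noncomputable def tiles {K : ℕ} (κ' : ℕ) (N1 : ℤ) (F : X K → ℂ) (x : X K) : ℂ :=
  ∑ r ∈ range 8, ∑ k ∈ range κ', ∑ j ∈ range (2 ^ k),
    (8:ℂ)⁻¹ * (tl k j N1).len * co H847.bb r F (tl k j N1) * pk H847.rh r (tl k j N1) x

theorem light_le {K ρ κ N : ℕ} (hρ2 : 2 ≤ ρ) (hρ : ρ + κ + 2 ≤ K) (hN : (N:ℤ) ≤ 2 ^ (K - 1))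
    (f : X K → ℝ) (x : X K) :
    |SGt ρ κ N f x|
      ≤ 2 * ‖tiles (K - (ρ + κ + 2)) (2 ^ (K - 1) + N) (fun y => ch (2 ^ (K - 1)) y * (f y : ℂ)) x‖
        + 2 * (324 + 96 * H847.B0) * MX f x := by
  set κ' := K - (ρ + κ + 2) with hκ'
  set M : ℤ := 2 ^ (K - 1) with hM
  set F : X K → ℂ := fun y => ch M y * (f y : ℂ) with hF
  have hKM : (2:ℤ) ^ K = 2 * M := by rw [hM, ← pow_succ']; congr 1; omega
  have h5 : (5:ℤ) * 2 ^ κ' ≤ M + N := by
    have h6 : (2:ℤ) ^ (κ' + 4) ≤ 2 ^ K := pow_le_pow_right₀ (by norm_num) (by omega)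
    rw [pow_add] at h6
    have : (0:ℤ) ≤ N := Int.natCast_nonneg _
    have h7 : (0:ℤ) < 2 ^ κ' := by positivity
    linarith
  have ht := H847.trunc_tiles (K := K) (κ := κ') (N := M + N) (by omega) h5 (by linarith) F x
  have hMX : MX (fun y => ‖F y‖) x = MX f x := by
    have : (fun y => ‖F y‖) = fun y => |f y| := by
      funext y
      rw [hF]
      simp only [norm_mul, H847.norm_ch, one_mul, Complex.norm_real, Real.norm_eq_abs]
    rw [this]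
    unfold MX
    simp only [abs_abs]
  rw [hMX] at ht
  have he : aveC (fun y => F y * (ch (M + N) (x - y) * H847.HK κ' (x - y)))
      = ch M x * aveC (fun y => (f y : ℂ) * (ch N (x - y) * H847.HK κ' (x - y))) := by
    rw [← H847.aveC_mul_left]
    congr 1
    funext y
    have h8 : ch M y * ch (M + N) (x - y) = ch M x * ch N (x - y) := by
      rw [H847.ch_add, ← mul_assoc, ← H847.ch_add' M y (x - y), add_sub_cancel]
    simp only [hF]
    linear_combination ((f y : ℂ) * H847.HK κ' (x - y)) * h8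
  rw [he] at ht
  have h9 : ‖ch M x * aveC (fun y => (f y : ℂ) * (ch N (x - y) * H847.HK κ' (x - y)))‖
      = ‖aveC (fun y => (f y : ℂ) * (ch N (x - y) * H847.HK κ' (x - y)))‖ := by
    rw [norm_mul, H847.norm_ch, one_mul]
  rw [SGt_eq hρ, abs_mul, abs_of_pos (by norm_num : (0:ℝ) < 2)]
  have h10 := Complex.abs_re_le_norm
    (aveC (fun y => (f y : ℂ) * (ch N (x - y) * H847.HK κ' (x - y))))
  rw [← h9] at h10
  have h11 := norm_sub_norm_le
    (ch M x * aveC (fun y => (f y : ℂ) * (ch N (x - y) * H847.HK κ' (x - y))))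
    (tiles κ' (M + N) F x)
  rw [norm_sub_rev] at h11
  have h12 := h11.trans ht
  linarith

/-- **P_SW**: the partial sum is controlled, pointwise in `x` and with free truncation `κ`, by the
tile sum over the scales `k < K - (ρ + κ + 2)` and the average over all grids of the shifts of
the scales `r 2^i`, `i < κ` -/
theorem pet_switch {K ρ κ m N : ℕ} (hρ2 : 2 ≤ ρ) (hρ : ρ + κ + 2 ≤ K) (hκ : κ ≤ m)
    (hN : (N:ℤ) ≤ 2 ^ (K - 1)) (f : X K → ℝ) (H : ℝ) (hH : ∀ y, |f y| ≤ H) (x : ℤ) :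
    ‖SG N (fun y => (f y : ℂ)) ((x : ℤ) : X K)‖
      ≤ 2 * ‖tiles (K - (ρ + κ + 2)) (2 ^ (K - 1) + N) (fun y => ch (2 ^ (K - 1)) y * (f y : ℂ))
          ((x : ℤ) : X K)‖
        + 3 * ∑ k ∈ range (2 ^ ρ), ∑ a ∈ Ico (0:ℤ) (((2 ^ ρ + k : ℕ) : ℤ) * 2 ^ (m + 1)),
          gw (2 ^ ρ + k) m * ‖Sh (2 ^ ρ + k) κ a (md N f) x‖
        + (2 * (324 + 96 * H847.B0) + 9000 * (1 + K / 2 ^ ρ)) * MX f ((x : ℤ) : X K)
        + 11000 * (2 ^ ρ * (2 * N + 1) / 2 ^ K) * H := by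
  have h1 := pet_dir (K := K) (ρ := ρ) (κ := κ) (N := N) (by omega) f H hH ((x : ℤ) : X K)
  have h2 := light_le (K := K) (ρ := ρ) (κ := κ) (N := N) hρ2 hρ hN f ((x : ℤ) : X K)
  have h3 := heavy_le (K := K) (ρ := ρ) (κ := κ) (m := m) (N := N) (by omega) hκ f x
  set S := SG N (fun y => (f y : ℂ)) ((x : ℤ) : X K)
  set G := SGt ρ κ N f ((x : ℤ) : X K)
  set P := (∑ t ∈ Icc (-(2:ℤ) ^ (K + 1)) (2 ^ (K + 1)), PP (2 ^ ρ) κ t
        * Real.sin ((2 * N + 1) * (Real.pi * t / 2 ^ K)) * f (((x : ℤ) : X K) - ((t : ℤ) : X K)))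
        / (2 * Real.pi)
  have h4 : ‖S‖ ≤ ‖S - (G : ℂ) + (P : ℂ)‖ + ‖((G - P : ℝ) : ℂ)‖ := by
    have : S = (S - (G : ℂ) + (P : ℂ)) + ((G - P : ℝ) : ℂ) := by push_cast; ring
    calc ‖S‖ = ‖(S - (G : ℂ) + (P : ℂ)) + ((G - P : ℝ) : ℂ)‖ := by rw [← this]
      _ ≤ _ := norm_add_le _ _
  have h5 : ‖((G - P : ℝ) : ℂ)‖ ≤ |G| + |P| := by
    rw [Complex.norm_real, Real.norm_eq_abs]
    exact abs_sub _ _
  linarith

end Vale.Agent.P091.PET
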